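import Vale.Agent.P088.H109.BEnCore
import Vale.Agent.P088.H72.B.DefsE

/-!
# P088, stage 2, row ENE
-/

open MeasureTheory Set
open scoped ContDiff Matrix

noncomputable section

namespace Vale.Agent.P088.H109

open Vale.Agent.P088.LR Vale.Agent.P088.LR.B Vale.Agent.P088.H639 Vale.Agent.P088.H884

/-- (ENE) the energy estimate. -/
theorem ene : RowENE := by
  intro n ρ hρ t ht hpos hSE hsm U hU hU0
  have hO : IsOpen (Om ρ) := isOpen_lt continuous_const hρ.sm.continuous
  have hb : Bornology.IsBounded (Om ρ) := by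
    have hsub : Om ρ ⊆ Metric.closedBall 0 1 := by
      intro x hx
      have hc : x ∈ core n := by
        by_contra h
        have h1 : 0 < ρ x := hx
        rw [hρ.off x h] at h1
        linarith
      rw [mem_closedBall_zero_iff, pi_norm_le_iff_of_nonneg zero_le_one]
      intro j
      rw [Real.norm_eq_abs, abs_le]
      have := hc j
      constructor <;> linarith
    exact Metric.isBounded_closedBall.subset hsub
  have htc : ∀ i j, Continuous fun x => t x i j := fun i j => (ht i j).continuous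
  have hsym : ∀ x, (t x).IsSymm := fun x => by
    have h := (hpos x).1
    rw [Matrix.IsHermitian, Matrix.conjTranspose_eq_transpose_of_trivial] at h
    exact h
  have h1m : SmM (fun _ : V n => (1 : Matrix (Fin n) (Fin n) ℝ)) := fun i j => contDiff_const
  have u1 : Sl (Om ρ) (fun _ => 1) (rp U) :=
    Sl_of_dv Vale.Agent.P088.LR.weak hO hb h1m (fun _ => Matrix.isSymm_one) (rp_contDiff hU)
      fun x hx => by rw [(dv_parts h1m hU x).1, hU0 x hx]; simp
  have u2 : Sl (Om ρ) (fun _ => 1) (mp U) :=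
    Sl_of_dv Vale.Agent.P088.LR.weak hO hb h1m (fun _ => Matrix.isSymm_one) (mp_contDiff hU)
      fun x hx => by rw [(dv_parts h1m hU x).2, hU0 x hx]; simp
  have r1 := en_real hO.measurableSet hb htc hsym hsm hSE u1
  have r2 := en_real hO.measurableSet hb htc hsym hsm hSE u2
  have hhc : ∀ i j, Continuous fun x => (fun x => t x - 1 : MF n) x i j := fun i j =>
    (htc i j).sub continuous_const
  have hhs : ∀ x, (t x - 1).IsSymm := fun x => (hsym x).sub Matrix.isSymm_one
  rw [bl_conj hb hhc hhs hU, Complex.norm_real, Real.norm_eq_abs,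
    abs_of_nonneg (add_nonneg r1.1 r2.1)]
  have hcr : ∀ j, Continuous fun x => ‖pd j U x‖ := fun j => (pd_continuous hU j).norm
  have hint : IntegrableOn (fun x => ∑ i, ∑ j, |t x i j - dl i j| ^ 2 * ‖pd j U x‖ ^ 2) (Om ρ) := by
    refine (Continuous.continuousOn ?_ |>.integrableOn_compact hb.isCompact_closure).mono_set
      subset_closure
    refine continuous_finsetSum _ fun i _ => continuous_finsetSum _ fun j _ => ?_
    exact (((htc i j).sub continuous_const).abs.pow 2).mul ((hcr j).pow 2)
  have hle : ∫ x in Om ρ, (qf t (rp U) x + qf t (mp U) x) ≤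
      ∫ x in Om ρ, n * ∑ i, ∑ j, |t x i j - dl i j| ^ 2 * ‖pd j U x‖ ^ 2 := by
    refine setIntegral_mono_on ((qf_integrable hb htc u1.1).add (qf_integrable hb htc u2.1))
      (hint.const_mul _) hO.measurableSet fun x _ => ?_
    have q1 := qf_le t (rp U) x
    have q2 := qf_le t (mp U) x
    have e : ∑ i, ∑ j, |t x i j - dl i j| ^ 2 * ‖pd j U x‖ ^ 2 =
        ∑ i, ∑ j, |t x i j - (1 : Matrix (Fin n) (Fin n) ℝ) i j| ^ 2 * pd j (rp U) x ^ 2 +
        ∑ i, ∑ j, |t x i j - (1 : Matrix (Fin n) (Fin n) ℝ) i j| ^ 2 * pd j (mp U) x ^ 2 := by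
      rw [← Finset.sum_add_distrib]
      refine Finset.sum_congr rfl fun i _ => ?_
      rw [← Finset.sum_add_distrib]
      refine Finset.sum_congr rfl fun j _ => ?_
      rw [pd_rp (hU.differentiable (by simp) x), pd_mp (hU.differentiable (by simp) x),
        ← Complex.normSq_eq_norm_sq, Complex.normSq_apply]
      ring
    rw [e, mul_add]
    linarith
  rw [integral_add (qf_integrable hb htc u1.1) (qf_integrable hb htc u2.1),
    integral_const_mul] at hle
  calc rb (Om ρ) (fun x => t x - 1) (rp U) (rp U) + rb (Om ρ) (fun x => t x - 1) (mp U) (mp U)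
      ≤ 2 * (∫ x in Om ρ, qf t (rp U) x) + 2 * ∫ x in Om ρ, qf t (mp U) x :=
        add_le_add r1.2 r2.2
    _ = 2 * ((∫ x in Om ρ, qf t (rp U) x) + ∫ x in Om ρ, qf t (mp U) x) := by ring
    _ ≤ 2 * (n * ∫ x in Om ρ, ∑ i, ∑ j, |t x i j - dl i j| ^ 2 * ‖pd j U x‖ ^ 2) := by gcongr
    _ = _ := by ring

end Vale.Agent.P088.H109
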