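import Vale.Agent.P088.H639.En
import Vale.Agent.P088.H757.Weak

/-!
# P088, stage 2, row EN: the form `t - 1` on harmonic functions is quadratically small

If `t` and `1` have the same Dirichlet energies on `Ω`, then
`0 ≤ ∫_Ω (t - 1)(∇U, ∇U) ≤ 2 ∫_Ω |(t - 1) ∇U|²` for every `U` harmonic in `Ω`.
-/

open MeasureTheory Set
open scoped ContDiff Matrix

noncomputable section

namespace Vale.Agent.P088.H109

open Vale.Agent.P088.LR Vale.Agent.P088.H639 Vale.Agent.P088.H884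

variable {n : ℕ}

/-- `|(t - 1) ∇U|²`. -/
def qf (t : MF n) (U : V n → ℝ) (x : V n) : ℝ :=
  ∑ i, (∑ j, (t x i j - (1 : Matrix (Fin n) (Fin n) ℝ) i j) * pd j U x) ^ 2

theorem pt_low (T : Matrix (Fin n) (Fin n) ℝ)
    (hs : ∀ i j, |T i j - (1 : Matrix (Fin n) (Fin n) ℝ) i j| ≤ 1 / (2 * (n + 1)))
    (b : Fin n → ℝ) : (1 / 2) * ∑ i, b i ^ 2 ≤ ∑ i, ∑ j, T i j * b i * b j := by
  have e : ∑ i, ∑ j, T i j * b i * b j = ∑ i, b i ^ 2 +
      ∑ i, ∑ j, (T i j - (1 : Matrix (Fin n) (Fin n) ℝ) i j) * b i * b j := by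
    have h1 : ∑ i, ∑ j, (1 : Matrix (Fin n) (Fin n) ℝ) i j * b i * b j = ∑ i, b i ^ 2 := by
      refine Finset.sum_congr rfl fun i _ => ?_
      rw [Finset.sum_eq_single i]
      · rw [Matrix.one_apply_eq]; ring
      · intro j _ hj
        rw [Matrix.one_apply_ne (Ne.symm hj)]; ring
      · intro h; exact absurd (Finset.mem_univ i) h
    rw [← h1, ← Finset.sum_add_distrib]
    refine Finset.sum_congr rfl fun i _ => ?_
    rw [← Finset.sum_add_distrib]
    refine Finset.sum_congr rfl fun j _ => ?_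
    ring
  have h2 : |∑ i, ∑ j, (T i j - (1 : Matrix (Fin n) (Fin n) ℝ) i j) * b i * b j| ≤
      1 / (2 * (n + 1)) * (∑ i, |b i|) ^ 2 := by
    calc |∑ i, ∑ j, (T i j - (1 : Matrix (Fin n) (Fin n) ℝ) i j) * b i * b j|
        ≤ ∑ i, |∑ j, (T i j - (1 : Matrix (Fin n) (Fin n) ℝ) i j) * b i * b j| :=
          Finset.abs_sum_le_sum_abs _ _
      _ ≤ ∑ i, ∑ j, |(T i j - (1 : Matrix (Fin n) (Fin n) ℝ) i j) * b i * b j| :=
          Finset.sum_le_sum fun i _ => Finset.abs_sum_le_sum_abs _ _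
      _ ≤ ∑ i, ∑ j, 1 / (2 * (n + 1)) * (|b i| * |b j|) := by
          refine Finset.sum_le_sum fun i _ => Finset.sum_le_sum fun j _ => ?_
          rw [abs_mul, abs_mul, mul_assoc]
          exact mul_le_mul_of_nonneg_right (hs i j) (by positivity)
      _ = 1 / (2 * (n + 1)) * (∑ i, |b i|) ^ 2 := by
          rw [sq, Finset.sum_mul_sum, Finset.mul_sum]
          refine Finset.sum_congr rfl fun i _ => ?_
          rw [Finset.mul_sum]
  have h3 : (∑ i, |b i|) ^ 2 ≤ n * ∑ i, b i ^ 2 := by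
    have := sq_sum_le_card_mul_sum_sq (s := (Finset.univ : Finset (Fin n))) (f := fun i => |b i|)
    simpa using this
  have h4 : (1 : ℝ) / (2 * (n + 1)) * (∑ i, |b i|) ^ 2 ≤ (1 / 2) * ∑ i, b i ^ 2 := by
    have hS : 0 ≤ ∑ i, b i ^ 2 := Finset.sum_nonneg fun i _ => sq_nonneg _
    calc (1 : ℝ) / (2 * (n + 1)) * (∑ i, |b i|) ^ 2
        ≤ 1 / (2 * (n + 1)) * (n * ∑ i, b i ^ 2) := by gcongr
      _ ≤ 1 / (2 * (n + 1)) * ((n + 1) * ∑ i, b i ^ 2) := by
          gcongr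
          linarith
      _ = (1 / 2) * ∑ i, b i ^ 2 := by
          field_simp
  have h5 := (abs_le.1 h2).1
  rw [e]
  linarith

theorem pt_ineq (T : Matrix (Fin n) (Fin n) ℝ) (hT : T.IsSymm)
    (hs : ∀ i j, |T i j - (1 : Matrix (Fin n) (Fin n) ℝ) i j| ≤ 1 / (2 * (n + 1)))
    (a b : Fin n → ℝ) :
    -(2 * ∑ i, (∑ j, (T i j - (1 : Matrix (Fin n) (Fin n) ℝ) i j) * a j) ^ 2) ≤
      2 * ∑ i, ∑ j, (T i j - (1 : Matrix (Fin n) (Fin n) ℝ) i j) * a i * b j +
        ∑ i, ∑ j, T i j * b i * b j := by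
  have h1 := pt_low T hs b
  have e : ∑ i, ∑ j, (T i j - (1 : Matrix (Fin n) (Fin n) ℝ) i j) * a i * b j =
      ∑ i, (∑ j, (T i j - (1 : Matrix (Fin n) (Fin n) ℝ) i j) * a j) * b i := by
    rw [Finset.sum_comm]
    refine Finset.sum_congr rfl fun j _ => ?_
    rw [Finset.sum_mul]
    refine Finset.sum_congr rfl fun i _ => ?_
    rw [hT.apply i j, (Matrix.isSymm_one (α := ℝ)).apply i j]
  have h2 : -(2 * ∑ i, (∑ j, (T i j - (1 : Matrix (Fin n) (Fin n) ℝ) i j) * a j) ^ 2) -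
      (1 / 2) * ∑ i, b i ^ 2 ≤
      2 * ∑ i, (∑ j, (T i j - (1 : Matrix (Fin n) (Fin n) ℝ) i j) * a j) * b i := by
    rw [Finset.mul_sum, Finset.mul_sum, Finset.mul_sum, ← Finset.sum_neg_distrib,
      ← Finset.sum_sub_distrib]
    refine Finset.sum_le_sum fun i _ => ?_
    nlinarith [sq_nonneg (2 * (∑ j, (T i j - (1 : Matrix (Fin n) (Fin n) ℝ) i j) * a j) + b i)]
  rw [e]
  linarith

theorem qf_continuous {t : MF n} (ht : ∀ i j, Continuous fun x => t x i j) {U : V n → ℝ}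
    (hU : ContDiff ℝ ∞ U) : Continuous (qf t U) := by
  unfold qf
  refine continuous_finsetSum _ fun i _ => Continuous.pow ?_ 2
  exact continuous_finsetSum _ fun j _ => ((ht i j).sub continuous_const).mul
    (pdr_continuous hU j)

theorem qf_integrable {Ω : Set (V n)} (hb : Bornology.IsBounded Ω) {t : MF n}
    (ht : ∀ i j, Continuous fun x => t x i j) {U : V n → ℝ} (hU : ContDiff ℝ ∞ U) :
    IntegrableOn (qf t U) Ω :=
  ((qf_continuous ht hU).continuousOn.integrableOn_compact hb.isCompact_closure).mono_set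
    subset_closure

theorem qf_nonneg (t : MF n) (U : V n → ℝ) (x : V n) : 0 ≤ qf t U x :=
  Finset.sum_nonneg fun _ _ => sq_nonneg _

theorem rb_sub_one {Ω : Set (V n)} (hb : Bornology.IsBounded Ω) {t : MF n}
    (ht : ∀ i j, Continuous fun x => t x i j) {u v : V n → ℝ} (hu : ContDiff ℝ ∞ u)
    (hv : ContDiff ℝ ∞ v) :
    rb Ω (fun x => t x - 1) u v = rb Ω t u v - rb Ω (fun _ => 1) u v := by
  unfold rb
  rw [← integral_sub (rb_integrable hb ht hu hv)
    (rb_integrable hb (s := fun _ => 1) (fun i j => continuous_const) hu hv)]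
  refine integral_congr_ae (Filter.Eventually.of_forall fun x => ?_)
  simp only [Matrix.sub_apply, ← Finset.sum_sub_distrib]
  refine Finset.sum_congr rfl fun i _ => Finset.sum_congr rfl fun j _ => ?_
  ring

/-- Every competitor of the harmonic function `U` has almost the energy of `U`. -/
theorem rb_lower {Ω : Set (V n)} (hO : MeasurableSet Ω) (hb : Bornology.IsBounded Ω) {t : MF n}
    (ht : ∀ i j, Continuous fun x => t x i j) (hsym : ∀ x, (t x).IsSymm)
    (hsm : ∀ x ∈ Ω, ∀ i j, |t x i j - (1 : Matrix (Fin n) (Fin n) ℝ) i j| ≤ 1 / (2 * (n + 1)))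
    {U v : V n → ℝ} (hU : Sl Ω (fun _ => 1) U) (hv : ContDiff ℝ ∞ v)
    (hvU : ∀ x ∈ frontier Ω, v x = U x) :
    rb Ω t U U - 2 * ∫ x in Ω, qf t U x ≤ rb Ω t v v := by
  have hR : ContDiff ℝ ∞ (fun y => v y + (-1) * U y) := hv.add (contDiff_const.mul hU.1)
  have hR0 : rb Ω (fun _ => 1) U (fun y => v y + (-1) * U y) = 0 :=
    hU.2 _ hR fun x hx => by rw [hvU x hx]; ring
  have h1c : ∀ i j, Continuous fun _ : V n => (1 : Matrix (Fin n) (Fin n) ℝ) i j :=
    fun i j => continuous_const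
  have htc : ∀ i j, Continuous fun x => (fun x => t x - 1 : MF n) x i j := fun i j =>
    (ht i j).sub continuous_const
  have e0 : v = fun y => U y + (v y + (-1) * U y) := by funext y; ring
  have e1 : rb Ω t v v = rb Ω t U U + 2 * rb Ω (fun x => t x - 1) U (fun y => v y + (-1) * U y) +
      rb Ω t (fun y => v y + (-1) * U y) (fun y => v y + (-1) * U y) := by
    rw [rb_sub_one hb ht hU.1 hR, hR0, sub_zero, ← rb_sq_add hb ht hsym hU.1 hR, ← e0]
  have key : -(2 * ∫ x in Ω, qf t U x) ≤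
      2 * rb Ω (fun x => t x - 1) U (fun y => v y + (-1) * U y) +
        rb Ω t (fun y => v y + (-1) * U y) (fun y => v y + (-1) * U y) := by
    unfold rb
    rw [← integral_const_mul, ← integral_const_mul, ← integral_neg,
      ← integral_add ((rb_integrable hb htc hU.1 hR).const_mul 2) (rb_integrable hb ht hR hR)]
    refine setIntegral_mono_on ((qf_integrable hb ht hU.1).const_mul 2).neg
      (((rb_integrable hb htc hU.1 hR).const_mul 2).add (rb_integrable hb ht hR hR)) hO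
      fun x hx => ?_
    exact pt_ineq (t x) (hsym x) (hsm x hx) (fun i => pd i U x) _
  rw [e1]
  linarith

/-- **Energy estimate**, for real harmonic functions. -/
theorem en_real {Ω : Set (V n)} (hO : MeasurableSet Ω) (hb : Bornology.IsBounded Ω) {t : MF n}
    (ht : ∀ i j, Continuous fun x => t x i j) (hsym : ∀ x, (t x).IsSymm)
    (hsm : ∀ x ∈ Ω, ∀ i j, |t x i j - (1 : Matrix (Fin n) (Fin n) ℝ) i j| ≤ 1 / (2 * (n + 1)))
    (hSE : SE Ω (fun _ => 1) t) {U : V n → ℝ} (hU : Sl Ω (fun _ => 1) U) :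
    0 ≤ rb Ω (fun x => t x - 1) U U ∧
      rb Ω (fun x => t x - 1) U U ≤ 2 * ∫ x in Ω, qf t U x := by
  have h1c : ∀ i j, Continuous fun _ : V n => (1 : Matrix (Fin n) (Fin n) ℝ) i j :=
    fun i j => continuous_const
  have h1 : En Ω (fun _ => 1) U = rb Ω (fun _ => 1) U U :=
    En_sol hb h1c (fun _ => Matrix.isSymm_one) (fun _ => Matrix.PosSemidef.one) hU
  have h2 : En Ω t U = rb Ω (fun _ => 1) U U := by rw [← hSE U hU.1, h1]
  have hlow : ∀ e ∈ {e | ∃ u : V n → ℝ, ContDiff ℝ ∞ u ∧ (∀ x ∈ frontier Ω, u x = U x) ∧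
      e = rb Ω t u u}, rb Ω t U U - 2 * ∫ x in Ω, qf t U x ≤ e := by
    rintro e ⟨u, hu, huU, rfl⟩
    exact rb_lower hO hb ht hsym hsm hU hu huU
  have h3 : rb Ω t U U - 2 * ∫ x in Ω, qf t U x ≤ En Ω t U :=
    le_csInf ⟨_, U, hU.1, fun _ _ => rfl, rfl⟩ hlow
  have h4 : En Ω t U ≤ rb Ω t U U := csInf_le ⟨_, hlow⟩ ⟨U, hU.1, fun _ _ => rfl, rfl⟩
  rw [rb_sub_one hb ht hU.1 hU.1]
  constructor <;> linarith

/-- `|(t - 1) ∇U|²` for a complex function, with the crude bound of the row. -/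
theorem qf_le (t : MF n) (U : V n → ℝ) (x : V n) :
    qf t U x ≤ n * ∑ i, ∑ j, |t x i j - (1 : Matrix (Fin n) (Fin n) ℝ) i j| ^ 2 * pd j U x ^ 2 := by
  unfold qf
  rw [Finset.mul_sum]
  refine Finset.sum_le_sum fun i _ => ?_
  have := sq_sum_le_card_mul_sum_sq (s := (Finset.univ : Finset (Fin n)))
    (f := fun j => (t x i j - (1 : Matrix (Fin n) (Fin n) ℝ) i j) * pd j U x)
  simp only [Finset.card_univ, Fintype.card_fin, mul_pow] at this
  simpa only [sq_abs] using this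

/-- `∫ (t - 1)(∇U, ∇ conj U)` through the real and imaginary parts. -/
theorem bl_conj {Ω : Set (V n)} (hb : Bornology.IsBounded Ω) {s : MF n}
    (hs : ∀ i j, Continuous fun x => s x i j) (hsym : ∀ x, (s x).IsSymm) {U : V n → ℂ}
    (hU : ContDiff ℝ ∞ U) :
    bl Ω s U (fun x => (starRingEnd ℂ) (U x)) =
      ((rb Ω s (rp U) (rp U) + rb Ω s (mp U) (mp U) : ℝ) : ℂ) := by
  have hc : ContDiff ℝ ∞ (fun x => (starRingEnd ℂ) (U x)) :=
    Complex.conjCLE.contDiff.comp hU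
  have e1 : rp (fun x => (starRingEnd ℂ) (U x)) = rp U := by
    funext x; simp [rp]
  have e2 : mp (fun x => (starRingEnd ℂ) (U x)) = fun x => (-1) * mp U x := by
    funext x; simp [mp]
  have hm := mp_contDiff hU
  have hneg : ∀ u : V n → ℝ, ContDiff ℝ ∞ u → rb Ω s u (fun x => (-1) * mp U x) =
      - rb Ω s u (mp U) := by
    intro u hu
    have h := rb_add_right hb hs hu hm (contDiff_const.mul hm : ContDiff ℝ ∞ fun y => (-1) * mp U y)
    have h0 : (fun y => mp U y + (-1) * mp U y) = fun _ => 0 := by funext y; ring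
    rw [h0, rb_zero] at h
    linarith
  rw [bl_re hb hs hU hc, e1, e2, hneg _ hm, hneg _ (rp_contDiff hU),
    rb_comm Ω hsym (mp U) (rp U)]
  simp

end Vale.Agent.P088.H109
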