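import Vale.Agent.P088.H109.BEn
import Vale.Agent.P088.H442.Defs3

/-!
# P088, stage 2 over a general base: energy estimate

If `t` and the base `s` have the same Dirichlet energies on `Ω`, then
`0 ≤ ∫_Ω (t - s)(∇U, ∇ conj U) ≤ (2 / m) ∫_Ω |(t - s) ∇U|²` for every solution `U` of
`div (s ∇U) = 0` in `Ω`, where `m` is a lower bound of `s` and `t - s` is small compared to `m`.
-/

open MeasureTheory Set
open scoped ContDiff Matrix

noncomputable section

namespace Vale.Agent.P088.H109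

open Vale.Agent.P088.LR Vale.Agent.P088.LR.B Vale.Agent.P088.H639 Vale.Agent.P088.H884
open Vale.Agent.P088.LR.CF (sc)

variable {n : ℕ}

/-- `|(t - s) ∇U|²`. -/
def qfx (s t : MF n) (U : V n → ℝ) (x : V n) : ℝ :=
  ∑ i, (∑ j, (t x i j - s x i j) * pd j U x) ^ 2

theorem ptx_low {m : ℝ} (hm : 0 < m) (S T : Matrix (Fin n) (Fin n) ℝ)
    (hS : ∀ b : Fin n → ℝ, m * ∑ i, b i ^ 2 ≤ ∑ i, ∑ j, S i j * b i * b j)
    (hs : ∀ i j, |T i j - S i j| ≤ m / (2 * (n + 1)))
    (b : Fin n → ℝ) : (m / 2) * ∑ i, b i ^ 2 ≤ ∑ i, ∑ j, T i j * b i * b j := by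
  have e : ∑ i, ∑ j, T i j * b i * b j = ∑ i, ∑ j, S i j * b i * b j +
      ∑ i, ∑ j, (T i j - S i j) * b i * b j := by
    rw [← Finset.sum_add_distrib]
    refine Finset.sum_congr rfl fun i _ => ?_
    rw [← Finset.sum_add_distrib]
    refine Finset.sum_congr rfl fun j _ => ?_
    ring
  have h2 : |∑ i, ∑ j, (T i j - S i j) * b i * b j| ≤ m / (2 * (n + 1)) * (∑ i, |b i|) ^ 2 := by
    calc |∑ i, ∑ j, (T i j - S i j) * b i * b j|
        ≤ ∑ i, |∑ j, (T i j - S i j) * b i * b j| := Finset.abs_sum_le_sum_abs _ _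
      _ ≤ ∑ i, ∑ j, |(T i j - S i j) * b i * b j| :=
          Finset.sum_le_sum fun i _ => Finset.abs_sum_le_sum_abs _ _
      _ ≤ ∑ i, ∑ j, m / (2 * (n + 1)) * (|b i| * |b j|) := by
          refine Finset.sum_le_sum fun i _ => Finset.sum_le_sum fun j _ => ?_
          rw [abs_mul, abs_mul, mul_assoc]
          exact mul_le_mul_of_nonneg_right (hs i j) (by positivity)
      _ = m / (2 * (n + 1)) * (∑ i, |b i|) ^ 2 := by
          rw [sq, Finset.sum_mul_sum, Finset.mul_sum]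
          refine Finset.sum_congr rfl fun i _ => ?_
          rw [Finset.mul_sum]
  have h3 : (∑ i, |b i|) ^ 2 ≤ n * ∑ i, b i ^ 2 := by
    have := sq_sum_le_card_mul_sum_sq (s := (Finset.univ : Finset (Fin n))) (f := fun i => |b i|)
    simpa using this
  have h4 : m / (2 * (n + 1)) * (∑ i, |b i|) ^ 2 ≤ (m / 2) * ∑ i, b i ^ 2 := by
    have hS' : 0 ≤ ∑ i, b i ^ 2 := Finset.sum_nonneg fun i _ => sq_nonneg _
    calc m / (2 * (n + 1)) * (∑ i, |b i|) ^ 2
        ≤ m / (2 * (n + 1)) * (n * ∑ i, b i ^ 2) := by gcongr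
      _ ≤ m / (2 * (n + 1)) * ((n + 1) * ∑ i, b i ^ 2) := by
          gcongr
          linarith
      _ = (m / 2) * ∑ i, b i ^ 2 := by
          field_simp
  have h5 := (abs_le.1 h2).1
  have h6 := hS b
  rw [e]
  linarith

theorem ptx_ineq {m : ℝ} (hm : 0 < m) (S T : Matrix (Fin n) (Fin n) ℝ) (hT : T.IsSymm)
    (hSs : S.IsSymm) (hS : ∀ b : Fin n → ℝ, m * ∑ i, b i ^ 2 ≤ ∑ i, ∑ j, S i j * b i * b j)
    (hs : ∀ i j, |T i j - S i j| ≤ m / (2 * (n + 1))) (a b : Fin n → ℝ) :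
    -((2 / m) * ∑ i, (∑ j, (T i j - S i j) * a j) ^ 2) ≤
      2 * ∑ i, ∑ j, (T i j - S i j) * a i * b j + ∑ i, ∑ j, T i j * b i * b j := by
  have h1 := ptx_low hm S T hS hs b
  have e : ∑ i, ∑ j, (T i j - S i j) * a i * b j =
      ∑ i, (∑ j, (T i j - S i j) * a j) * b i := by
    rw [Finset.sum_comm]
    refine Finset.sum_congr rfl fun j _ => ?_
    rw [Finset.sum_mul]
    refine Finset.sum_congr rfl fun i _ => ?_
    rw [hT.apply i j, hSs.apply i j]
  have h2 : -((2 / m) * ∑ i, (∑ j, (T i j - S i j) * a j) ^ 2) - (m / 2) * ∑ i, b i ^ 2 ≤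
      2 * ∑ i, (∑ j, (T i j - S i j) * a j) * b i := by
    rw [Finset.mul_sum, Finset.mul_sum, Finset.mul_sum, ← Finset.sum_neg_distrib,
      ← Finset.sum_sub_distrib]
    refine Finset.sum_le_sum fun i _ => ?_
    have h3 : 0 ≤ (1 / (2 * m)) * (2 * (∑ j, (T i j - S i j) * a j) + m * b i) ^ 2 := by
      positivity
    have h4 : (1 / (2 * m)) * (2 * (∑ j, (T i j - S i j) * a j) + m * b i) ^ 2 =
        (2 / m) * (∑ j, (T i j - S i j) * a j) ^ 2 +
          2 * ((∑ j, (T i j - S i j) * a j) * b i) + (m / 2) * b i ^ 2 := by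
      field_simp
      ring
    linarith
  rw [e]
  linarith

theorem qfx_continuous {s t : MF n} (hs : ∀ i j, Continuous fun x => s x i j)
    (ht : ∀ i j, Continuous fun x => t x i j) {U : V n → ℝ}
    (hU : ContDiff ℝ ∞ U) : Continuous (qfx s t U) := by
  unfold qfx
  refine continuous_finsetSum _ fun i _ => Continuous.pow ?_ 2
  exact continuous_finsetSum _ fun j _ => ((ht i j).sub (hs i j)).mul (pdr_continuous hU j)

theorem qfx_integrable {Ω : Set (V n)} (hb : Bornology.IsBounded Ω) {s t : MF n}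
    (hs : ∀ i j, Continuous fun x => s x i j)
    (ht : ∀ i j, Continuous fun x => t x i j) {U : V n → ℝ} (hU : ContDiff ℝ ∞ U) :
    IntegrableOn (qfx s t U) Ω :=
  ((qfx_continuous hs ht hU).continuousOn.integrableOn_compact hb.isCompact_closure).mono_set
    subset_closure

theorem rb_subx {Ω : Set (V n)} (hb : Bornology.IsBounded Ω) {s t : MF n}
    (hs : ∀ i j, Continuous fun x => s x i j)
    (ht : ∀ i j, Continuous fun x => t x i j) {u v : V n → ℝ} (hu : ContDiff ℝ ∞ u)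
    (hv : ContDiff ℝ ∞ v) :
    rb Ω (fun x => t x - s x) u v = rb Ω t u v - rb Ω s u v := by
  unfold rb
  rw [← integral_sub (rb_integrable hb ht hu hv) (rb_integrable hb hs hu hv)]
  refine integral_congr_ae (Filter.Eventually.of_forall fun x => ?_)
  simp only [Matrix.sub_apply, ← Finset.sum_sub_distrib]
  refine Finset.sum_congr rfl fun i _ => Finset.sum_congr rfl fun j _ => ?_
  ring

/-- Every competitor of the solution `U` has almost the energy of `U`. -/
theorem rbx_lower {Ω : Set (V n)} (hO : MeasurableSet Ω) (hb : Bornology.IsBounded Ω) {s t : MF n}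
    {m : ℝ} (hm : 0 < m) (hsc : ∀ i j, Continuous fun x => s x i j)
    (hss : ∀ x, (s x).IsSymm)
    (hlow : ∀ x ∈ Ω, ∀ b : Fin n → ℝ, m * ∑ i, b i ^ 2 ≤ ∑ i, ∑ j, s x i j * b i * b j)
    (ht : ∀ i j, Continuous fun x => t x i j) (hsym : ∀ x, (t x).IsSymm)
    (hsm : ∀ x ∈ Ω, ∀ i j, |t x i j - s x i j| ≤ m / (2 * (n + 1)))
    {U v : V n → ℝ} (hU : Sl Ω s U) (hv : ContDiff ℝ ∞ v)
    (hvU : ∀ x ∈ frontier Ω, v x = U x) :
    rb Ω t U U - (2 / m) * ∫ x in Ω, qfx s t U x ≤ rb Ω t v v := by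
  have hR : ContDiff ℝ ∞ (fun y => v y + (-1) * U y) := hv.add (contDiff_const.mul hU.1)
  have hR0 : rb Ω s U (fun y => v y + (-1) * U y) = 0 :=
    hU.2 _ hR fun x hx => by rw [hvU x hx]; ring
  have htc : ∀ i j, Continuous fun x => (fun x => t x - s x : MF n) x i j := fun i j =>
    (ht i j).sub (hsc i j)
  have e0 : v = fun y => U y + (v y + (-1) * U y) := by funext y; ring
  have e1 : rb Ω t v v = rb Ω t U U + 2 * rb Ω (fun x => t x - s x) U (fun y => v y + (-1) * U y) +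
      rb Ω t (fun y => v y + (-1) * U y) (fun y => v y + (-1) * U y) := by
    rw [rb_subx hb hsc ht hU.1 hR, hR0, sub_zero, ← rb_sq_add hb ht hsym hU.1 hR, ← e0]
  have key : -((2 / m) * ∫ x in Ω, qfx s t U x) ≤
      2 * rb Ω (fun x => t x - s x) U (fun y => v y + (-1) * U y) +
        rb Ω t (fun y => v y + (-1) * U y) (fun y => v y + (-1) * U y) := by
    unfold rb
    rw [← integral_const_mul, ← integral_const_mul, ← integral_neg,
      ← integral_add ((rb_integrable hb htc hU.1 hR).const_mul 2) (rb_integrable hb ht hR hR)]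
    refine setIntegral_mono_on ((qfx_integrable hb hsc ht hU.1).const_mul (2 / m)).neg
      (((rb_integrable hb htc hU.1 hR).const_mul 2).add (rb_integrable hb ht hR hR)) hO
      fun x hx => ?_
    exact ptx_ineq hm (s x) (t x) (hsym x) (hss x) (hlow x hx) (hsm x hx) (fun i => pd i U x) _
  rw [e1]
  linarith

/-- **Energy estimate over the base `s`**, for real solutions. -/
theorem enx_real {Ω : Set (V n)} (hO : MeasurableSet Ω) (hb : Bornology.IsBounded Ω) {s t : MF n}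
    {m : ℝ} (hm : 0 < m) (hsc : ∀ i j, Continuous fun x => s x i j)
    (hsp : ∀ x, (s x).PosSemidef)
    (hlow : ∀ x ∈ Ω, ∀ b : Fin n → ℝ, m * ∑ i, b i ^ 2 ≤ ∑ i, ∑ j, s x i j * b i * b j)
    (ht : ∀ i j, Continuous fun x => t x i j) (hsym : ∀ x, (t x).IsSymm)
    (hsm : ∀ x ∈ Ω, ∀ i j, |t x i j - s x i j| ≤ m / (2 * (n + 1)))
    (hSE : SE Ω s t) {U : V n → ℝ} (hU : Sl Ω s U) :
    0 ≤ rb Ω (fun x => t x - s x) U U ∧
      rb Ω (fun x => t x - s x) U U ≤ (2 / m) * ∫ x in Ω, qfx s t U x := by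
  have hss : ∀ x, (s x).IsSymm := fun x => by
    have h := (hsp x).1
    rw [Matrix.IsHermitian, Matrix.conjTranspose_eq_transpose_of_trivial] at h
    exact h
  have h1 : En Ω s U = rb Ω s U U := En_sol hb hsc hss hsp hU
  have h2 : En Ω t U = rb Ω s U U := by rw [← hSE U hU.1, h1]
  have hlow' : ∀ e ∈ {e | ∃ u : V n → ℝ, ContDiff ℝ ∞ u ∧ (∀ x ∈ frontier Ω, u x = U x) ∧
      e = rb Ω t u u}, rb Ω t U U - (2 / m) * ∫ x in Ω, qfx s t U x ≤ e := by
    rintro e ⟨u, hu, huU, rfl⟩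
    exact rbx_lower hO hb hm hsc hss hlow ht hsym hsm hU hu huU
  have h3 : rb Ω t U U - (2 / m) * ∫ x in Ω, qfx s t U x ≤ En Ω t U :=
    le_csInf ⟨_, U, hU.1, fun _ _ => rfl, rfl⟩ hlow'
  have h4 : En Ω t U ≤ rb Ω t U U := csInf_le ⟨_, hlow'⟩ ⟨U, hU.1, fun _ _ => rfl, rfl⟩
  rw [rb_subx hb hsc ht hU.1 hU.1]
  constructor <;> linarith

theorem qfx_le (s t : MF n) (U : V n → ℝ) (x : V n) :
    qfx s t U x ≤ n * ∑ i, ∑ j, |t x i j - s x i j| ^ 2 * pd j U x ^ 2 := by
  unfold qfx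
  rw [Finset.mul_sum]
  refine Finset.sum_le_sum fun i _ => ?_
  have := sq_sum_le_card_mul_sum_sq (s := (Finset.univ : Finset (Fin n)))
    (f := fun j => (t x i j - s x i j) * pd j U x)
  simp only [Finset.card_univ, Fintype.card_fin, mul_pow] at this
  simpa only [sq_abs] using this

/-- **(ENEX)** the energy estimate over a general base `s`, for every open bounded `Ω`. -/
theorem enx_gen {Ω : Set (V n)} (hO : IsOpen Ω) (hb : Bornology.IsBounded Ω) {s t : MF n}
    {m : ℝ} (hm : 0 < m) (hs : SmM s) (hsp : ∀ x, (s x).PosSemidef)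
    (hlow : ∀ x ∈ Ω, ∀ b : Fin n → ℝ, m * ∑ i, b i ^ 2 ≤ ∑ i, ∑ j, s x i j * b i * b j)
    (ht : SmM t) (hsym : ∀ x, (t x).IsSymm) (hSE : SE Ω s t)
    (hsm : ∀ x ∈ Ω, ∀ i j, |t x i j - s x i j| ≤ m / (2 * (n + 1)))
    {U : V n → ℂ} (hU : ContDiff ℝ ∞ U) (hU0 : ∀ x ∈ Ω, dv s U x = 0) :
    ‖bl Ω (fun x => t x - s x) U (fun x => (starRingEnd ℂ) (U x))‖ ≤
      2 * n / m * ∫ x in Ω, ∑ i, ∑ j, |t x i j - s x i j| ^ 2 * ‖pd j U x‖ ^ 2 := by
  have htc : ∀ i j, Continuous fun x => t x i j := fun i j => (ht i j).continuous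
  have hsc : ∀ i j, Continuous fun x => s x i j := fun i j => (hs i j).continuous
  have hss : ∀ x, (s x).IsSymm := fun x => by
    have h := (hsp x).1
    rw [Matrix.IsHermitian, Matrix.conjTranspose_eq_transpose_of_trivial] at h
    exact h
  have u1 : Sl Ω s (rp U) :=
    Sl_of_dv Vale.Agent.P088.LR.weak hO hb hs hss (rp_contDiff hU)
      fun x hx => by rw [(dv_parts hs hU x).1, hU0 x hx]; simp
  have u2 : Sl Ω s (mp U) :=
    Sl_of_dv Vale.Agent.P088.LR.weak hO hb hs hss (mp_contDiff hU)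
      fun x hx => by rw [(dv_parts hs hU x).2, hU0 x hx]; simp
  have r1 := enx_real hO.measurableSet hb hm hsc hsp hlow htc hsym hsm hSE u1
  have r2 := enx_real hO.measurableSet hb hm hsc hsp hlow htc hsym hsm hSE u2
  have hhc : ∀ i j, Continuous fun x => (fun x => t x - s x : MF n) x i j := fun i j =>
    (htc i j).sub (hsc i j)
  have hhs : ∀ x, (t x - s x).IsSymm := fun x => (hsym x).sub (hss x)
  rw [bl_conj hb hhc hhs hU, Complex.norm_real, Real.norm_eq_abs,
    abs_of_nonneg (add_nonneg r1.1 r2.1)]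
  have hcr : ∀ j, Continuous fun x => ‖pd j U x‖ := fun j => (pd_continuous hU j).norm
  have hint : IntegrableOn (fun x => ∑ i, ∑ j, |t x i j - s x i j| ^ 2 * ‖pd j U x‖ ^ 2) Ω := by
    refine (Continuous.continuousOn ?_ |>.integrableOn_compact hb.isCompact_closure).mono_set
      subset_closure
    refine continuous_finsetSum _ fun i _ => continuous_finsetSum _ fun j _ => ?_
    exact (((htc i j).sub (hsc i j)).abs.pow 2).mul ((hcr j).pow 2)
  have hle : ∫ x in Ω, (qfx s t (rp U) x + qfx s t (mp U) x) ≤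
      ∫ x in Ω, n * ∑ i, ∑ j, |t x i j - s x i j| ^ 2 * ‖pd j U x‖ ^ 2 := by
    refine setIntegral_mono_on
      ((qfx_integrable hb hsc htc u1.1).add (qfx_integrable hb hsc htc u2.1))
      (hint.const_mul _) hO.measurableSet fun x _ => ?_
    have q1 := qfx_le s t (rp U) x
    have q2 := qfx_le s t (mp U) x
    have e : ∑ i, ∑ j, |t x i j - s x i j| ^ 2 * ‖pd j U x‖ ^ 2 =
        ∑ i, ∑ j, |t x i j - s x i j| ^ 2 * pd j (rp U) x ^ 2 +
        ∑ i, ∑ j, |t x i j - s x i j| ^ 2 * pd j (mp U) x ^ 2 := by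
      rw [← Finset.sum_add_distrib]
      refine Finset.sum_congr rfl fun i _ => ?_
      rw [← Finset.sum_add_distrib]
      refine Finset.sum_congr rfl fun j _ => ?_
      rw [pd_rp (hU.differentiable (by simp) x), pd_mp (hU.differentiable (by simp) x),
        ← Complex.normSq_eq_norm_sq, Complex.normSq_apply]
      ring
    rw [e, mul_add]
    linarith
  rw [integral_add (qfx_integrable hb hsc htc u1.1) (qfx_integrable hb hsc htc u2.1),
    integral_const_mul] at hle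
  have hm0 : 0 ≤ 2 / m := by positivity
  calc rb Ω (fun x => t x - s x) (rp U) (rp U) + rb Ω (fun x => t x - s x) (mp U) (mp U)
      ≤ (2 / m) * (∫ x in Ω, qfx s t (rp U) x) + (2 / m) * ∫ x in Ω, qfx s t (mp U) x :=
        add_le_add r1.2 r2.2
    _ = (2 / m) * ((∫ x in Ω, qfx s t (rp U) x) + ∫ x in Ω, qfx s t (mp U) x) := by ring
    _ ≤ (2 / m) * (n * ∫ x in Ω, ∑ i, ∑ j, |t x i j - s x i j| ^ 2 * ‖pd j U x‖ ^ 2) := by gcongr
    _ = _ := by ring

theorem Om_bounded {ρ : V n → ℝ} (hρ : Dom ρ) : Bornology.IsBounded (Om ρ) := by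
  have hsub : Om ρ ⊆ Metric.closedBall 0 1 := by
    intro x hx
    have hc : x ∈ core n := by
      by_contra h
      have h1 : 0 < ρ x := hx
      rw [hρ.off x h] at h1
      linarith
    rw [mem_closedBall_zero_iff, pi_norm_le_iff_of_nonneg zero_le_one]
    intro j
    rw [Real.norm_eq_abs, abs_le]
    have := hc j
    constructor <;> linarith
  exact Metric.isBounded_closedBall.subset hsub

theorem sc_apply (σ : V n → ℝ) (x : V n) (i j : Fin n) : sc σ x i j = σ x * dl i j := by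
  simp [sc, Matrix.smul_apply]

theorem sc_posSemidef {σ : V n → ℝ} (hσ : ∀ x, 0 ≤ σ x) (x : V n) : (sc σ x).PosSemidef := by
  unfold sc
  exact Matrix.PosSemidef.one.smul (hσ x)

theorem sc_low (σ : V n → ℝ) (x : V n) (b : Fin n → ℝ) :
    ∑ i, ∑ j, sc σ x i j * b i * b j = σ x * ∑ i, b i ^ 2 := by
  rw [Finset.mul_sum]
  refine Finset.sum_congr rfl fun i _ => ?_
  rw [Finset.sum_eq_single i]
  · rw [sc_apply, dl, Matrix.one_apply_eq]; ring
  · intro j _ hj
    rw [sc_apply, dl, Matrix.one_apply_ne (Ne.symm hj)]; ring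
  · intro h; exact absurd (Finset.mem_univ i) h

/-- **(ENEX)** the energy estimate over the conformally flat base `σ · 1`, `m ≤ σ` on `Ω`. -/
theorem enex {ρ : V n → ℝ} (hρ : Dom ρ) {σ : V n → ℝ} (hσ : ContDiff ℝ ∞ σ)
    (hpos : ∀ x, 0 < σ x) {m : ℝ} (hm : 0 < m) (hσm : ∀ x ∈ Om ρ, m ≤ σ x) {t : MF n}
    (ht : SmM t) (hsym : ∀ x, (t x).IsSymm) (hSE : SE (Om ρ) (sc σ) t)
    (hsm : ∀ x ∈ Om ρ, ∀ i j, |t x i j - σ x * dl i j| ≤ m / (2 * (n + 1)))
    {U : V n → ℂ} (hU : ContDiff ℝ ∞ U) (hU0 : ∀ x ∈ Om ρ, dv (sc σ) U x = 0) :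
    ‖bl (Om ρ) (fun x => t x - sc σ x) U (fun x => (starRingEnd ℂ) (U x))‖ ≤
      2 * n / m * ∫ x in Om ρ, ∑ i, ∑ j, |t x i j - σ x * dl i j| ^ 2 * ‖pd j U x‖ ^ 2 := by
  have hO : IsOpen (Om ρ) := isOpen_lt continuous_const hρ.sm.continuous
  have hs : SmM (sc σ) := fun i j => by
    simp only [sc_apply]
    exact hσ.mul contDiff_const
  have h := enx_gen hO (Om_bounded hρ) hm hs (sc_posSemidef fun x => (hpos x).le)
    (fun x hx b => by
      rw [sc_low]
      exact mul_le_mul_of_nonneg_right (hσm x hx) (Finset.sum_nonneg fun i _ => sq_nonneg _))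
    ht hsym hSE (fun x hx i j => by rw [sc_apply]; exact hsm x hx i j) hU hU0
  simpa only [sc_apply] using h

/-- A positive continuous `σ` has a positive lower bound on `Om ρ`. -/
theorem exists_low {ρ : V n → ℝ} (hρ : Dom ρ) {σ : V n → ℝ} (hσ : Continuous σ)
    (hpos : ∀ x, 0 < σ x) : ∃ m > 0, ∀ x ∈ Om ρ, m ≤ σ x := by
  rcases (Om ρ).eq_empty_or_nonempty with h | h
  · exact ⟨1, one_pos, by simp [h]⟩
  · obtain ⟨x, _, hx⟩ := (Om_bounded hρ).isCompact_closure.exists_isMinOn h.closure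
      hσ.continuousOn
    exact ⟨σ x, hpos x, fun y hy => hx (subset_closure hy)⟩

end Vale.Agent.P088.H109
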