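import Vale.Agent.P088.H158.ConnA
import Vale.Agent.P088.H924.Orth
import Vale.Agent.P088.H158.BMap
import Vale.Agent.P088.H109.EnX
import Vale.Agent.P088.H198.K.Defs

/-!
# P088, theorem JB: row K_HDY (Poincaré and Hardy inequalities on a smooth bounded domain)
-/

open MeasureTheory Set
open scoped ContDiff Matrix

noncomputable section

namespace Vale.Agent.P088.H109.Hdy

open Vale.Agent.P088.LR Vale.Agent.P088.LR.B Vale.Agent.P088.LR.H158

variable {n N : ℕ}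

theorem contDiff_pdG {F : Type*} [NormedAddCommGroup F] [NormedSpace ℝ F] {f : V n → F}
    (hf : ContDiff ℝ ∞ f) (i : Fin n) : ContDiff ℝ ∞ (pd i f) :=
  (hf.fderiv_right (m := ∞) (by simp)).clm_apply contDiff_const

theorem pd_ofR {f : V n → ℝ} (hf : ContDiff ℝ ∞ f) (i : Fin n) (x : V n) :
    pd i (fun y => ((f y : ℝ) : ℂ)) x = ((pd i f x : ℝ) : ℂ) :=
  pd_clm Complex.ofRealCLM (hf.differentiable (by simp) x) i

theorem cd_ofR {f : V n → ℝ} (hf : ContDiff ℝ ∞ f) : ContDiff ℝ ∞ fun y => ((f y : ℝ) : ℂ) :=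
  Complex.ofRealCLM.contDiff.comp hf

theorem pd_mulR {f g : V n → ℝ} (hf : ContDiff ℝ ∞ f) (hg : ContDiff ℝ ∞ g) (i : Fin n)
    (x : V n) : pd i (fun y => f y * g y) x = pd i f x * g x + f x * pd i g x := by
  unfold pd
  rw [fderiv_fun_mul (hf.differentiable (by simp) x) (hg.differentiable (by simp) x)]
  simp [smul_eq_mul]
  ring

/-- Integration by parts, real functions. -/
theorem flux_real {Ω : Set (V n)} (hΩ : IsOpen Ω) (hb : Bornology.IsBounded Ω)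
    {G : Fin n → V n → ℝ} (hG : ∀ j, ContDiff ℝ ∞ (G j)) {φ : V n → ℝ} (hφ : ContDiff ℝ ∞ φ)
    (h0 : ∀ x ∈ frontier Ω, φ x = 0) :
    ∫ x in Ω, ∑ j, G j x * pd j φ x = -∫ x in Ω, (∑ j, pd j (G j) x) * φ x := by
  have h := H924.weak_flux hΩ hb (G := fun j x => ((G j x : ℝ) : ℂ)) (fun j => cd_ofR (hG j))
    (φ := fun x => ((φ x : ℝ) : ℂ)) (cd_ofR hφ) (fun x hx => by rw [h0 x hx, Complex.ofReal_zero])
  have e1 : ∀ x, ∑ j, ((G j x : ℝ) : ℂ) * pd j (fun x => ((φ x : ℝ) : ℂ)) x =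
      ((∑ j, G j x * pd j φ x : ℝ) : ℂ) := by
    intro x
    push_cast
    exact Finset.sum_congr rfl fun j _ => by rw [pd_ofR hφ]
  have e2 : ∀ x, (∑ j, pd j (fun x => ((G j x : ℝ) : ℂ)) x) * ((φ x : ℝ) : ℂ) =
      (((∑ j, pd j (G j) x) * φ x : ℝ) : ℂ) := by
    intro x
    push_cast
    congr 1
    exact Finset.sum_congr rfl fun j _ => by rw [pd_ofR (hG j)]
  simp only [e1, e2, integral_complex_ofReal] at h
  exact_mod_cast h

theorem ion {Ω : Set (V n)} (hb : Bornology.IsBounded Ω) {f : V n → ℝ} (hf : Continuous f) :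
    IntegrableOn f Ω :=
  (hf.continuousOn.integrableOn_compact hb.isCompact_closure).mono_set subset_closure

theorem om_open {ρ : V n → ℝ} (hρ : Dom ρ) : IsOpen (Om ρ) :=
  isOpen_lt continuous_const hρ.sm.continuous

theorem om_core {ρ : V n → ℝ} (hρ : Dom ρ) {x : V n} (hx : x ∈ Om ρ) : x ∈ core n := by
  by_contra h
  have h1 : 0 < ρ x := hx
  rw [hρ.off x h] at h1
  linarith

/-- Poincaré inequality. -/
theorem poincare {ρ : V n → ℝ} (hρ : Dom ρ) (j₀ : Fin n) {g : V n → ℝ} (hg : ContDiff ℝ ∞ g)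
    (h0 : ∀ x ∈ frontier (Om ρ), g x = 0) :
    ∫ x in Om ρ, g x ^ 2 ≤ 4 * ∫ x in Om ρ, ∑ j, pd j g x ^ 2 := by
  have hO := om_open hρ
  have hb := Om_bounded hρ
  have hgg : ContDiff ℝ ∞ fun y => g y * g y := hg.mul hg
  have hp : ∀ j, Continuous (pd j g) := fun j => (contDiff_pdG hg j).continuous
  have hG : ∀ j, ContDiff ℝ ∞ fun x : V n => if j = j₀ then x j₀ else (0 : ℝ) := by
    intro j
    split_ifs
    · exact contDiff_apply ℝ ℝ j₀
    · exact contDiff_const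
  have h := flux_real hO hb hG hgg (fun x hx => by rw [h0 x hx, zero_mul])
  have e1 : ∀ x, ∑ j, (if j = j₀ then x j₀ else (0 : ℝ)) * pd j (fun y => g y * g y) x =
      x j₀ * (2 * g x * pd j₀ g x) := by
    intro x
    simp only [ite_mul, zero_mul, Finset.sum_ite_eq', Finset.mem_univ, if_true]
    rw [pd_mulR hg hg]
    ring
  have e2 : ∀ x, (∑ j, pd j (fun x : V n => if j = j₀ then x j₀ else (0 : ℝ)) x) * (g x * g x) =
      g x ^ 2 := by
    intro x
    have e3 : ∀ j, pd j (fun x : V n => if j = j₀ then x j₀ else (0 : ℝ)) x =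
        if j = j₀ then 1 else 0 := by
      intro j
      split_ifs with hj
      · subst hj
        unfold pd
        have h1 : HasFDerivAt (fun x : V n => x j) (ContinuousLinearMap.proj (R := ℝ)
          (φ := fun _ : Fin n => ℝ) j) x := hasFDerivAt_apply j x
        rw [h1.fderiv]
        simp
      · unfold pd
        simp
    simp only [e3, Finset.sum_ite_eq', Finset.mem_univ, if_true]
    ring
  simp only [e1, e2] at h
  have h4 : ∫ x in Om ρ, g x ^ 2 = ∫ x in Om ρ, -(x j₀ * (2 * g x * pd j₀ g x)) := by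
    rw [integral_neg, h, neg_neg]
  have c1 : Continuous fun x => g x ^ 2 := hg.continuous.pow 2
  have c2 : Continuous fun x => ∑ j, pd j g x ^ 2 :=
    continuous_finsetSum _ fun j _ => (hp j).pow 2
  have c3 : Continuous fun x => -(x j₀ * (2 * g x * pd j₀ g x)) :=
    ((continuous_apply j₀).mul ((continuous_const.mul hg.continuous).mul (hp j₀))).neg
  have c1' : Continuous fun x => 1 / 2 * g x ^ 2 := continuous_const.mul c1
  have c2' : Continuous fun x => 2 * ∑ j, pd j g x ^ 2 := continuous_const.mul c2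
  have c12 : Continuous fun x => 1 / 2 * g x ^ 2 + 2 * ∑ j, pd j g x ^ 2 := c1'.add c2'
  have h5 : ∫ x in Om ρ, -(x j₀ * (2 * g x * pd j₀ g x)) ≤
      ∫ x in Om ρ, (1 / 2 * g x ^ 2 + 2 * ∑ j, pd j g x ^ 2) := by
    refine setIntegral_mono_on (ion hb c3) (ion hb c12) hO.measurableSet ?_
    intro x hx
    have hc := om_core hρ hx j₀
    have h6 : pd j₀ g x ^ 2 ≤ ∑ j, pd j g x ^ 2 :=
      Finset.single_le_sum (f := fun j => pd j g x ^ 2) (fun _ _ => sq_nonneg _)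
        (Finset.mem_univ j₀)
    have h7 : -(x j₀ * (2 * g x * pd j₀ g x)) ≤ 1 / 2 * g x ^ 2 + 2 * pd j₀ g x ^ 2 := by
      have h8 : x j₀ ^ 2 ≤ 1 := by nlinarith [hc.1, hc.2]
      have h9 : x j₀ ^ 2 * pd j₀ g x ^ 2 ≤ 1 * pd j₀ g x ^ 2 :=
        mul_le_mul_of_nonneg_right h8 (sq_nonneg _)
      nlinarith [sq_nonneg (g x + 2 * (x j₀ * pd j₀ g x))]
    linarith
  rw [integral_add (ion hb c1') (ion hb c2'),
    integral_const_mul, integral_const_mul, ← h4] at h5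
  linarith

/-- **Hardy inequality**, real functions. -/
theorem hardy_real (hn : 1 ≤ n) {ρ : V n → ℝ} (hρ : Dom ρ) : ∃ C : ℝ, 0 < C ∧
    ∀ ψ : V n → ℝ, ContDiff ℝ ∞ ψ →
      ∫ x in Om ρ, ψ x ^ 2 ≤ C * ∫ x in Om ρ, ∑ j, pd j (fun y => ρ y * ψ y) x ^ 2 := by
  have hO := om_open hρ
  have hb := Om_bounded hρ
  have hpρ : ∀ j, Continuous (pd j ρ) := fun j => (contDiff_pdG hρ.sm j).continuous
  have cL : Continuous fun x => ∑ j, pd j (pd j ρ) x :=
    continuous_finsetSum _ fun j _ => (contDiff_pdG (contDiff_pdG hρ.sm j) j).continuous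
  have cG : Continuous fun x => ∑ j, pd j ρ x ^ 2 := continuous_finsetSum _ fun j _ => (hpρ j).pow 2
  -- constants
  have hpos : ∀ x, 0 < ∑ j, pd j ρ x ^ 2 + ρ x ^ 2 := by
    intro x
    have h1 : 0 ≤ ∑ j, pd j ρ x ^ 2 := Finset.sum_nonneg fun _ _ => sq_nonneg _
    by_cases hx : ρ x = 0
    · have h2 := hρ.nz x hx
      have h3 : ∃ j, pd j ρ x ≠ 0 := by
        by_contra h
        push Not at h
        apply h2
        refine ContinuousLinearMap.ext fun v => ?_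
        have hv : v = ∑ j, v j • (Pi.single j (1 : ℝ) : V n) := by
          funext i
          simp [Finset.sum_apply, Pi.single_apply]
        rw [hv, map_sum]
        simp only [map_smul]
        have h4 : ∀ j, fderiv ℝ ρ x (Pi.single j (1 : ℝ)) = 0 := h
        simp [h4]
      obtain ⟨j, hj⟩ := h3
      have h5 : 0 < pd j ρ x ^ 2 := by positivity
      have h6 : pd j ρ x ^ 2 ≤ ∑ j, pd j ρ x ^ 2 :=
        Finset.single_le_sum (f := fun j => pd j ρ x ^ 2) (fun _ _ => sq_nonneg _)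
          (Finset.mem_univ j)
      have h7 : 0 ≤ ρ x ^ 2 := sq_nonneg _
      linarith
    · have : 0 < ρ x ^ 2 := by positivity
      linarith
  have cGr : Continuous fun x => ∑ j, pd j ρ x ^ 2 + ρ x ^ 2 := cG.add (hρ.sm.continuous.pow 2)
  obtain ⟨c₀, hc₀, hc⟩ := exists_low hρ cGr hpos
  have hbd : ∀ f : V n → ℝ, Continuous f → ∃ L, 0 ≤ L ∧ ∀ x ∈ Om ρ, |f x| ≤ L := by
    intro f hf
    obtain ⟨L, hL⟩ := hb.isCompact_closure.exists_bound_of_continuousOn hf.continuousOn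
    refine ⟨|L|, abs_nonneg _, fun x hx => ?_⟩
    have := hL x (subset_closure hx)
    rw [Real.norm_eq_abs] at this
    exact this.trans (le_abs_self _)
  obtain ⟨L₁, hL₁, hL₁'⟩ := hbd _ cG
  obtain ⟨L₂, hL₂, hL₂'⟩ := hbd _ cL
  refine ⟨2 / c₀ * (4 * L₁ / c₀ + 4 * (L₂ ^ 2 / c₀ + 1)), by positivity, ?_⟩
  intro ψ hψ
  set g : V n → ℝ := fun y => ρ y * ψ y with hg
  have sg : ContDiff ℝ ∞ g := hρ.sm.mul hψ
  have hpg : ∀ j, Continuous (pd j g) := fun j => (contDiff_pdG sg j).continuous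
  have hfr : ∀ x ∈ frontier (Om ρ), ρ x = 0 := fun x hx => B.H158.frontier_zero hρ hx
  have hP := poincare hρ ⟨0, hn⟩ sg (fun x hx => by simp only [hg]; rw [hfr x hx, zero_mul])
  have hF := flux_real hO hb (G := fun j => pd j ρ) (fun j => contDiff_pdG hρ.sm j)
    (φ := fun y => g y * ψ y) (sg.mul hψ) (fun x hx => by
      simp only [hg]
      rw [hfr x hx, zero_mul, zero_mul])
  have e1 : ∀ x, ∑ j, pd j ρ x * pd j (fun y => g y * ψ y) x =
      2 * ψ x * ∑ j, pd j ρ x * pd j g x - (∑ j, pd j ρ x ^ 2) * ψ x ^ 2 := by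
    intro x
    rw [Finset.mul_sum, Finset.sum_mul, ← Finset.sum_sub_distrib]
    refine Finset.sum_congr rfl fun j _ => ?_
    have h1 : pd j g x = pd j ρ x * ψ x + ρ x * pd j ψ x := pd_mulR hρ.sm hψ j x
    have h2 : g x = ρ x * ψ x := rfl
    rw [pd_mulR sg hψ, h1, h2]
    ring
  simp only [e1] at hF
  have cs : Continuous fun x => ∑ j, pd j ρ x * pd j g x :=
    continuous_finsetSum _ fun j _ => (hpρ j).mul (hpg j)
  have cψ : Continuous ψ := hψ.continuous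
  have cg : Continuous g := sg.continuous
  have c1 : Continuous fun x => 2 * ψ x * ∑ j, pd j ρ x * pd j g x :=
    (continuous_const.mul cψ).mul cs
  have c2 : Continuous fun x => (∑ j, pd j ρ x ^ 2) * ψ x ^ 2 := cG.mul (cψ.pow 2)
  have c3 : Continuous fun x => (∑ j, pd j (pd j ρ) x) * (g x * ψ x) := cL.mul (cg.mul cψ)
  have c4 : Continuous fun x => g x ^ 2 := cg.pow 2
  have c5 : Continuous fun x => ψ x ^ 2 := cψ.pow 2
  have c6 : Continuous fun x => ∑ j, pd j g x ^ 2 :=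
    continuous_finsetSum _ fun j _ => (hpg j).pow 2
  have d5 : Continuous fun x => c₀ / 2 * ψ x ^ 2 := continuous_const.mul c5
  have d5' : Continuous fun x => c₀ * ψ x ^ 2 := continuous_const.mul c5
  have d6 : Continuous fun x => 4 * L₁ / c₀ * ∑ j, pd j g x ^ 2 := continuous_const.mul c6
  have d4 : Continuous fun x => L₂ ^ 2 / c₀ * g x ^ 2 := continuous_const.mul c4
  have d56 : Continuous fun x => c₀ / 2 * ψ x ^ 2 + 4 * L₁ / c₀ * ∑ j, pd j g x ^ 2 := d5.add d6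
  have d564 : Continuous fun x => c₀ / 2 * ψ x ^ 2 + 4 * L₁ / c₀ * ∑ j, pd j g x ^ 2 +
    L₂ ^ 2 / c₀ * g x ^ 2 := d56.add d4
  have d24 : Continuous fun x => (∑ j, pd j ρ x ^ 2) * ψ x ^ 2 + g x ^ 2 := c2.add c4
  have d13 : Continuous fun x => (2 * ψ x * ∑ j, pd j ρ x * pd j g x) +
    (∑ j, pd j (pd j ρ) x) * (g x * ψ x) := c1.add c3
  rw [integral_sub (ion hb c1) (ion hb c2)] at hF
  have k1 : c₀ * ∫ x in Om ρ, ψ x ^ 2 ≤
      (∫ x in Om ρ, (∑ j, pd j ρ x ^ 2) * ψ x ^ 2) + ∫ x in Om ρ, g x ^ 2 := by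
    rw [← integral_const_mul, ← integral_add (ion hb c2) (ion hb c4)]
    refine setIntegral_mono_on (ion hb d5') (ion hb d24) hO.measurableSet fun x hx => ?_
    have h1 := hc x hx
    have h2 : g x = ρ x * ψ x := rfl
    rw [h2]
    nlinarith [mul_le_mul_of_nonneg_right h1 (sq_nonneg (ψ x))]
  have k2 : (∫ x in Om ρ, 2 * ψ x * ∑ j, pd j ρ x * pd j g x) +
      ∫ x in Om ρ, (∑ j, pd j (pd j ρ) x) * (g x * ψ x) ≤
      c₀ / 2 * (∫ x in Om ρ, ψ x ^ 2) + (4 * L₁ / c₀) * (∫ x in Om ρ, ∑ j, pd j g x ^ 2) +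
        (L₂ ^ 2 / c₀) * ∫ x in Om ρ, g x ^ 2 := by
    rw [← integral_const_mul, ← integral_const_mul, ← integral_const_mul,
      ← integral_add (ion hb c1) (ion hb c3),
      ← integral_add (ion hb d5) (ion hb d6), ← integral_add (ion hb d56) (ion hb d4)]
    refine setIntegral_mono_on (ion hb d13) (ion hb d564) hO.measurableSet fun x hx => ?_
    have h1 := hL₁' x hx
    have h2 := hL₂' x hx
    have hs0 : 0 ≤ ∑ j, pd j ρ x ^ 2 := Finset.sum_nonneg fun _ _ => sq_nonneg _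
    rw [abs_of_nonneg hs0] at h1
    -- Cauchy-Schwarz
    have h3 : (∑ j, pd j ρ x * pd j g x) ^ 2 ≤ (∑ j, pd j ρ x ^ 2) * ∑ j, pd j g x ^ 2 :=
      Finset.sum_mul_sq_le_sq_mul_sq _ _ _
    have h4 : 0 ≤ ∑ j, pd j g x ^ 2 := Finset.sum_nonneg fun _ _ => sq_nonneg _
    have h5 : (∑ j, pd j ρ x * pd j g x) ^ 2 ≤ L₁ * ∑ j, pd j g x ^ 2 :=
      h3.trans (mul_le_mul_of_nonneg_right h1 h4)
    set s := ∑ j, pd j ρ x * pd j g x with hs
    set T := ∑ j, pd j g x ^ 2 with hT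
    set l := ∑ j, pd j (pd j ρ) x with hl
    have h6 : 2 * ψ x * s ≤ c₀ / 4 * ψ x ^ 2 + 4 / c₀ * s ^ 2 := by
      have : 0 ≤ 1 / c₀ * (c₀ / 2 * ψ x - 2 * s) ^ 2 := by positivity
      have e : 1 / c₀ * (c₀ / 2 * ψ x - 2 * s) ^ 2 =
          c₀ / 4 * ψ x ^ 2 + 4 / c₀ * s ^ 2 - 2 * ψ x * s := by
        field_simp
        ring
      linarith
    have h7 : 4 / c₀ * s ^ 2 ≤ 4 * L₁ / c₀ * T := by
      have := mul_le_mul_of_nonneg_left h5 (show 0 ≤ 4 / c₀ by positivity)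
      calc 4 / c₀ * s ^ 2 ≤ 4 / c₀ * (L₁ * T) := this
        _ = 4 * L₁ / c₀ * T := by ring
    have h8 : l * (g x * ψ x) ≤ c₀ / 4 * ψ x ^ 2 + 1 / c₀ * (l * g x) ^ 2 := by
      have : 0 ≤ 1 / c₀ * (c₀ / 2 * ψ x - l * g x) ^ 2 := by positivity
      have e : 1 / c₀ * (c₀ / 2 * ψ x - l * g x) ^ 2 =
          c₀ / 4 * ψ x ^ 2 + 1 / c₀ * (l * g x) ^ 2 - l * (g x * ψ x) := by
        field_simp
        ring
      linarith
    have h9 : 1 / c₀ * (l * g x) ^ 2 ≤ L₂ ^ 2 / c₀ * g x ^ 2 := by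
      have h10 : l ^ 2 ≤ L₂ ^ 2 := by
        rw [← sq_abs l]
        exact pow_le_pow_left₀ (abs_nonneg _) h2 2
      have h11 := mul_le_mul_of_nonneg_right h10 (sq_nonneg (g x))
      have h12 := mul_le_mul_of_nonneg_left h11 (show 0 ≤ 1 / c₀ by positivity)
      calc 1 / c₀ * (l * g x) ^ 2 = 1 / c₀ * (l ^ 2 * g x ^ 2) := by ring
        _ ≤ 1 / c₀ * (L₂ ^ 2 * g x ^ 2) := h12
        _ = L₂ ^ 2 / c₀ * g x ^ 2 := by ring
    linarith
  have k3 : (∫ x in Om ρ, (∑ j, pd j ρ x ^ 2) * ψ x ^ 2) =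
      (∫ x in Om ρ, 2 * ψ x * ∑ j, pd j ρ x * pd j g x) +
      ∫ x in Om ρ, (∑ j, pd j (pd j ρ) x) * (g x * ψ x) := by linarith
  rw [k3] at k1
  have hL0 : 0 ≤ L₂ ^ 2 / c₀ := by positivity
  have k4 : L₂ ^ 2 / c₀ * (∫ x in Om ρ, g x ^ 2) ≤
      L₂ ^ 2 / c₀ * (4 * ∫ x in Om ρ, ∑ j, pd j g x ^ 2) := mul_le_mul_of_nonneg_left hP hL0
  have k5 : c₀ / 2 * (∫ x in Om ρ, ψ x ^ 2) ≤
      (4 * L₁ / c₀ + 4 * (L₂ ^ 2 / c₀ + 1)) * ∫ x in Om ρ, ∑ j, pd j g x ^ 2 := by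
    linarith
  have k6 := mul_le_mul_of_nonneg_left k5 (show 0 ≤ 2 / c₀ by positivity)
  calc ∫ x in Om ρ, ψ x ^ 2 = 2 / c₀ * (c₀ / 2 * ∫ x in Om ρ, ψ x ^ 2) := by
        field_simp
    _ ≤ 2 / c₀ * ((4 * L₁ / c₀ + 4 * (L₂ ^ 2 / c₀ + 1)) * ∫ x in Om ρ, ∑ j, pd j g x ^ 2) := k6
    _ = _ := by ring

/-- **Hardy inequality**, complex functions. -/
theorem hardy (hn : 1 ≤ n) {ρ : V n → ℝ} (hρ : Dom ρ) : ∃ C : ℝ, 0 < C ∧
    ∀ ψ : V n → ℂ, ContDiff ℝ ∞ ψ →
      ∫ x in Om ρ, ‖ψ x‖ ^ 2 ≤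
        C * ∫ x in Om ρ, ∑ j, ‖pd j (fun y => (ρ y : ℂ) * ψ y) x‖ ^ 2 := by
  obtain ⟨C, hC, h⟩ := hardy_real hn hρ
  have hb := Om_bounded hρ
  refine ⟨C, hC, fun ψ hψ => ?_⟩
  have s1 : ContDiff ℝ ∞ fun x => (ψ x).re := Complex.reCLM.contDiff.comp hψ
  have s2 : ContDiff ℝ ∞ fun x => (ψ x).im := Complex.imCLM.contDiff.comp hψ
  have sg : ContDiff ℝ ∞ fun y => (ρ y : ℂ) * ψ y := (cd_ofR hρ.sm).mul hψ
  have e1 : ∀ x, ‖ψ x‖ ^ 2 = (ψ x).re ^ 2 + (ψ x).im ^ 2 := fun x => by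
    rw [← Complex.normSq_eq_norm_sq, Complex.normSq_apply]
    ring
  have e2 : ∀ j x, ‖pd j (fun y => (ρ y : ℂ) * ψ y) x‖ ^ 2 =
      pd j (fun y => ρ y * (ψ y).re) x ^ 2 + pd j (fun y => ρ y * (ψ y).im) x ^ 2 := by
    intro j x
    have r1 : pd j (fun y => ρ y * (ψ y).re) x = (pd j (fun y => (ρ y : ℂ) * ψ y) x).re := by
      have := pd_clm Complex.reCLM (sg.differentiable (by simp) x) j
      rw [Complex.reCLM_apply] at this
      rw [← this]
      congr 1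
      funext y
      simp
    have r2 : pd j (fun y => ρ y * (ψ y).im) x = (pd j (fun y => (ρ y : ℂ) * ψ y) x).im := by
      have := pd_clm Complex.imCLM (sg.differentiable (by simp) x) j
      rw [Complex.imCLM_apply] at this
      rw [← this]
      congr 1
      funext y
      simp
    rw [r1, r2, ← Complex.normSq_eq_norm_sq, Complex.normSq_apply]
    ring
  have c1 : Continuous fun x => (ψ x).re ^ 2 := s1.continuous.pow 2
  have c2 : Continuous fun x => (ψ x).im ^ 2 := s2.continuous.pow 2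
  have c3 : Continuous fun x => ∑ j, pd j (fun y => ρ y * (ψ y).re) x ^ 2 :=
    continuous_finsetSum _ fun j _ => ((contDiff_pdG (hρ.sm.mul s1) j).continuous).pow 2
  have c4 : Continuous fun x => ∑ j, pd j (fun y => ρ y * (ψ y).im) x ^ 2 :=
    continuous_finsetSum _ fun j _ => ((contDiff_pdG (hρ.sm.mul s2) j).continuous).pow 2
  simp only [e1, e2, Finset.sum_add_distrib]
  rw [integral_add (ion hb c1) (ion hb c2), integral_add (ion hb c3) (ion hb c4), mul_add]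
  exact add_le_add (h _ s1) (h _ s2)

/-- **Row K_HDY** -/
theorem hdy : K.RowHDY := fun _ hn hρ => hardy (by omega) hρ

end Vale.Agent.P088.H109.Hdy
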