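import Vale.Agent.P088.H955.CId
import Vale.Agent.P088.H650.CFc
import Vale.Agent.P088.H159.USm
import Vale.Agent.P088.H393.Est3
import Vale.Agent.P088.H705.UFin
import Vale.Agent.P088.H501.A12

/-!
# P088, Theorem C: row C_SF (the conformal factor, in the frame `e_{i₀}`)
-/

open MeasureTheory Set
open scoped ContDiff Matrix

noncomputable section

namespace Vale.Agent.P088.LR.H109C

open Vale.Agent.P088.LR Vale.Agent.P088.LR.CF Vale.Agent.P088.LR.H705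
open Vale.Agent.P088.LR.H129 Vale.Agent.P088.LR.CC

variable {n : ℕ}

/-! ## Frequencies -/

theorem nr_sq (ξ : V n) : nr ξ ^ 2 = ∑ j, ξ j ^ 2 := by
  unfold nr
  exact Real.sq_sqrt (Finset.sum_nonneg fun _ _ => sq_nonneg _)

theorem nr_shift {ξ p : V n} (h : ∑ j, p j * ξ j = 0) (hp : nr p = 1) {X s : ℝ} (hX : 0 ≤ X)
    (hs : s ^ 2 = X ^ 2 - nr ξ ^ 2) : nr (fun j => ξ j + s * p j) = X := by
  have h1 : nr (fun j => ξ j + s * p j) ^ 2 = X ^ 2 := by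
    rw [nr_sq]
    have h2 : ∑ j, (ξ j + s * p j) ^ 2 =
        ∑ j, ξ j ^ 2 + 2 * s * ∑ j, p j * ξ j + s ^ 2 * ∑ j, p j ^ 2 := by
      rw [Finset.mul_sum, Finset.mul_sum, ← Finset.sum_add_distrib, ← Finset.sum_add_distrib]
      exact Finset.sum_congr rfl fun j _ => by ring
    rw [h2, h, ← nr_sq, ← nr_sq, hp, hs]
    ring
  exact (sq_eq_sq₀ (Real.sqrt_nonneg _) hX).1 h1

theorem exp_split (i₀ : Fin n) {ξ ξ₁ ξ₂ : V n} (hn : nr ξ₁ = nr ξ₂)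
    (h : ∀ j, ξ₁ j + ξ₂ j = 2 * ξ j) (x : V n) :
    Complex.exp (∑ j, zs 1 i₀ ξ₁ j * x j) * Complex.exp (∑ j, zs (-1) i₀ ξ₂ j * x j) =
      ex (-ξ) x := by
  rw [ex, ← Complex.exp_add]
  congr 1
  rw [← Finset.sum_add_distrib]
  push_cast
  rw [Finset.mul_sum]
  refine Finset.sum_congr rfl fun j _ => ?_
  rw [H650.zs_eq, H650.zs_eq, Pi.neg_apply, hn]
  have h2 : (ξ₁ j : ℂ) + (ξ₂ j : ℂ) = 2 * (ξ j : ℂ) := by exact_mod_cast congrArg (fun r : ℝ => (r : ℂ)) (h j)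
  push_cast
  linear_combination (-(Real.pi : ℂ) * (x j : ℂ) * Complex.I) * h2

/-! ## The solutions -/

section sol

variable {i₀ : Fin n} {z : Fin n → ℂ} {t t' : MF n} {q q' : V n → ℝ} {c c' : Ix n → ℂ}
  {u u' : V n → ℂ}

theorem sol_eq (S : SolQ z (th0 i₀) t q c u) :
    u = fun x => H393.EE z x * (1 + Es (th0 i₀) c x) := by
  funext x
  rw [S.val x, H393.EE, H393.LL_apply]

theorem sol_contDiff (S : SolQ z (th0 i₀) t q c u) : ContDiff ℝ ∞ u := by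
  rw [sol_eq S]
  exact (H393.EE_contDiff _).mul (contDiff_const.add (H501.rowA1 (th0 i₀) c S.rc).1)

theorem rd_lmz (z : Fin n → ℂ) {c : Ix n → ℂ} (hc : RD c) (i : Fin n) :
    RD fun k => lmz i₀ z k i * c k := by
  have := H393.rd_add (H393.rd_fr hc (th0 i₀) i) (H393.rd_const_mul hc (z i))
  refine (iff_of_eq (congrArg RD ?_)).mp this
  funext k
  unfold lmz
  ring

theorem pd_sol (S : SolQ z (th0 i₀) t q c u) (i : Fin n) (x : V n) :
    pd i u x = H393.EE z x * (z i + Es (th0 i₀) (fun k => lmz i₀ z k i * c k) x) := by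
  have h := H393.pd_EE_mul H501.rowA1 z (th0 i₀) 1 S.rc i x
  rw [mul_one] at h
  rw [← sol_eq S] at h
  exact h

theorem norm_sol_le (S : SolQ z (th0 i₀) t q c u) (x : V n) :
    ‖u x‖ ≤ ‖H393.EE z x‖ * (1 + nm 0 c) := by
  rw [congrFun (sol_eq S) x, norm_mul]
  refine mul_le_mul_of_nonneg_left ((norm_add_le _ _).trans ?_) (norm_nonneg _)
  rw [norm_one]
  exact add_le_add le_rfl (H393.norm_Es_le S.rc _ _)

theorem norm_pd_sol_le (S : SolQ z (th0 i₀) t q c u) (i : Fin n) (x : V n) :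
    ‖pd i u x‖ ≤ ‖H393.EE z x‖ * (‖z i‖ + nm 0 (fun k => lmz i₀ z k i * c k)) := by
  rw [pd_sol S, norm_mul]
  refine mul_le_mul_of_nonneg_left ((norm_add_le _ _).trans ?_) (norm_nonneg _)
  exact add_le_add le_rfl (H393.norm_Es_le (rd_lmz z S.rc i) _ _)

theorem norm_diff_le (S : SolQ z (th0 i₀) t q c u) (S' : SolQ z (th0 i₀) t' q' c' u') (x : V n) :
    ‖u' x - u x‖ ≤ ‖H393.EE z x‖ * nm 0 (fun k => c' k - c k) := by
  have h : u' x - u x = H393.EE z x * Es (th0 i₀) (fun k => c' k - c k) x := by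
    rw [congrFun (sol_eq S) x, congrFun (sol_eq S') x, H650.es_split S'.rc S.rc]
    ring
  rw [h, norm_mul]
  exact mul_le_mul_of_nonneg_left (H393.norm_Es_le (H650.rd_sub S'.rc S.rc) _ _) (norm_nonneg _)

theorem norm_pd_diff_le (S : SolQ z (th0 i₀) t q c u) (S' : SolQ z (th0 i₀) t' q' c' u')
    (i : Fin n) (x : V n) :
    ‖pd i u' x - pd i u x‖ ≤
      ‖H393.EE z x‖ * nm 0 (fun k => lmz i₀ z k i * (c' k - c k)) := by
  have h : pd i u' x - pd i u x =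
      H393.EE z x * Es (th0 i₀) (fun k => lmz i₀ z k i * (c' k - c k)) x := by
    rw [pd_sol S, pd_sol S', H650.es_split (rd_lmz z S'.rc i) (rd_lmz z S.rc i)]
    have : (fun k => lmz i₀ z k i * c' k - lmz i₀ z k i * c k) =
        fun k => lmz i₀ z k i * (c' k - c k) := by
      funext k
      ring
    rw [this]
    ring
  rw [h, norm_mul]
  exact mul_le_mul_of_nonneg_left (H393.norm_Es_le (rd_lmz z (H650.rd_sub S'.rc S.rc) i) _ _)
    (norm_nonneg _)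

end sol

/-! ## The identity -/

theorem pd_zero_off {f : V n → ℂ} (h0 : ∀ x ∉ core n, f x = 0) {x : V n} (hx : x ∉ core n)
    (j : Fin n) : pd j f x = 0 := by
  have : f =ᶠ[nhds x] fun _ => (0 : ℂ) := by
    filter_upwards [H127.isCompact_core.isClosed.isOpen_compl.mem_nhds hx] with y hy
    exact h0 y hy
  unfold pd
  rw [this.fderiv_eq]
  simp

theorem core_cube {x : V n} (hx : x ∈ core n) : x ∈ cube n := fun j => by
  have := hx j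
  constructor <;> linarith [this.1, this.2]

theorem hcs_of {g : V n → ℂ} (h : ∀ x ∉ core n, g x = 0) : HasCompactSupport g :=
  HasCompactSupport.intro H127.isCompact_core h

theorem main_id {s : MF n} (hs : SmM s) (hsym : ∀ x, (s x).IsSymm) {f U W : V n → ℂ}
    (hf : ContDiff ℝ ∞ f) (hf0 : ∀ x ∉ core n, f x = 0) (hU : ContDiff ℝ ∞ U)
    (hW : ContDiff ℝ ∞ W) (hU0 : ∀ x ∈ cube n, dv s U x = 0)
    (hW0 : ∀ x ∈ cube n, dv s W x = 0) :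
    ∫ x, f x * (2 * B s U W x) = ∫ x, (U x * W x) * dv s f x := by
  have hUW : ContDiff ℝ ∞ (fun y => U y * W y) := hU.mul hW
  have hfl0 : ∀ i, ∀ x ∉ core n, flx s f i x = 0 := by
    intro i x hx
    unfold flx
    exact Finset.sum_eq_zero fun j _ => by rw [pd_zero_off hf0 hx, mul_zero]
  have hdv0 : ∀ x ∉ core n, dv s f x = 0 := by
    intro x hx
    show ∑ i, pd i (flx s f i) x = 0
    exact Finset.sum_eq_zero fun i _ => pd_zero_off (hfl0 i) hx i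
  have hb : Bornology.IsBounded (core n) := H127.isCompact_core.isBounded
  have hG1 : ∀ i, ContDiff ℝ ∞ (fun y => f y * flx s (fun y => U y * W y) i y) :=
    fun i => hf.mul (contDiff_flx hs hUW i)
  have hG2 : ∀ i, ContDiff ℝ ∞ (fun y => (U y * W y) * flx s f i y) :=
    fun i => hUW.mul (contDiff_flx hs hf i)
  have z1 : ∀ i, ∀ x ∉ core n, f x * flx s (fun y => U y * W y) i x = 0 := fun i x hx => by
    rw [hf0 x hx, zero_mul]
  have z2 : ∀ i, ∀ x ∉ core n, (U x * W x) * flx s f i x = 0 := fun i x hx => by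
    rw [hfl0 i x hx, mul_zero]
  have i1 : ∫ x, ∑ i, pd i (fun y => f y * flx s (fun y => U y * W y) i y) x = 0 := by
    rw [integral_finsetSum _ fun i _ => (H158.integral_pd_zero hb (hG1 i) (z1 i) i).1]
    exact Finset.sum_eq_zero fun i _ => (H158.integral_pd_zero hb (hG1 i) (z1 i) i).2
  have i2 : ∫ x, ∑ i, pd i (fun y => (U y * W y) * flx s f i y) x = 0 := by
    rw [integral_finsetSum _ fun i _ => (H158.integral_pd_zero hb (hG2 i) (z2 i) i).1]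
    exact Finset.sum_eq_zero fun i _ => (H158.integral_pd_zero hb (hG2 i) (z2 i) i).2
  have e1 : ∀ x, ∑ i, pd i (fun y => f y * flx s (fun y => U y * W y) i y) x =
      B s f (fun y => U y * W y) x + f x * (2 * B s U W x) := by
    intro x
    rw [div_mul hs hf hUW, dv_mul hs hsym hU hW]
    by_cases hx : x ∈ core n
    · rw [hU0 x (core_cube hx), hW0 x (core_cube hx)]
      ring
    · rw [hf0 x hx]
      ring
  have e2 : ∀ x, ∑ i, pd i (fun y => (U y * W y) * flx s f i y) x =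
      B s f (fun y => U y * W y) x + (U x * W x) * dv s f x := by
    intro x
    rw [div_mul hs hUW hf, B_symm hsym]
  simp only [e1] at i1
  simp only [e2] at i2
  have cB : Continuous (B s f (fun y => U y * W y)) := continuous_B hs hf hUW
  have sB : HasCompactSupport (B s f (fun y => U y * W y)) := hcs_of fun x hx => by
    unfold B
    exact Finset.sum_eq_zero fun i _ => Finset.sum_eq_zero fun j _ => by
      rw [pd_zero_off hf0 hx, mul_zero, zero_mul]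
  have iB : Integrable (B s f (fun y => U y * W y)) := cB.integrable_of_hasCompactSupport sB
  have iF : Integrable (fun x => f x * (2 * B s U W x)) :=
    (hf.continuous.mul (continuous_const.mul (continuous_B hs hU hW))).integrable_of_hasCompactSupport
      (hcs_of fun x hx => by
        show f x * (2 * B s U W x) = 0
        rw [hf0 x hx, zero_mul])
  have iD : Integrable (fun x => (U x * W x) * dv s f x) :=
    (hUW.continuous.mul (contDiff_dvF hs hf).continuous).integrable_of_hasCompactSupport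
      (hcs_of fun x hx => by
        show (U x * W x) * dv s f x = 0
        rw [hdv0 x hx, mul_zero])
  rw [integral_add iB iF] at i1
  rw [integral_add iB iD] at i2
  have := i1.trans i2.symm
  exact add_left_cancel this

/-! ## Bounds -/

theorem core_eq : core n = Icc (fun _ : Fin n => (1 / 4 : ℝ)) (fun _ => 3 / 4) := by
  ext x
  simp only [core, Set.mem_ofPred_eq, Set.mem_Icc, Pi.le_def]
  exact ⟨fun h => ⟨fun j => (h j).1, fun j => (h j).2⟩, fun h j => ⟨h.1 j, h.2 j⟩⟩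

theorem int_le {F : V n → ℂ} (h0 : ∀ x ∉ core n, F x = 0) {M : ℝ} (hM : 0 ≤ M)
    (h : ∀ x, ‖F x‖ ≤ M) : ‖∫ x, F x‖ ≤ M := by
  rw [← setIntegral_eq_integral_of_forall_compl_eq_zero h0]
  refine (norm_setIntegral_le_of_norm_le_const (H127.isCompact_core.measure_lt_top)
    (fun x _ => h x)).trans ?_
  have h1 : volume.real (core n) ≤ 1 := by
    rw [Measure.real, core_eq, Real.volume_Icc_pi_toReal (fun _ => by norm_num)]
    refine Finset.prod_le_one (fun _ _ => by norm_num) (fun _ _ => by norm_num)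
  calc M * volume.real (core n) ≤ M * 1 := mul_le_mul_of_nonneg_left h1 hM
    _ = M := mul_one M

section ph

variable {φ : V n → ℝ}

theorem cxp_contDiff (hφ : SmP φ) : ContDiff ℝ ∞ (cx φ) := Complex.ofRealCLM.contDiff.comp hφ.1

theorem cxp_ne (hφ : SmP φ) (x : V n) : cx φ x ≠ 0 := by
  unfold cx
  exact_mod_cast (hφ.2 x).ne'

theorem div_contDiff (hφ : SmP φ) {u : V n → ℂ} (hu : ContDiff ℝ ∞ u) :
    ContDiff ℝ ∞ (fun y => u y * (cx φ y)⁻¹) := hu.mul ((cxp_contDiff hφ).inv (cxp_ne hφ))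

theorem pd_div (hφ : SmP φ) {u : V n → ℂ} (hu : ContDiff ℝ ∞ u) (i : Fin n) (x : V n) :
    cx φ x * pd i (fun y => u y * (cx φ y)⁻¹) x =
      pd i u x - u x * (cx φ x)⁻¹ * pd i (cx φ) x := by
  have e1 : u = fun y => cx φ y * (u y * (cx φ y)⁻¹) := by
    funext y
    have := cxp_ne hφ y
    field_simp
  have e2 : pd i u x = pd i (cx φ) x * (u x * (cx φ x)⁻¹) +
      cx φ x * pd i (fun y => u y * (cx φ y)⁻¹) x := by
    conv_lhs => rw [e1]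
    exact pd_mul (cxp_contDiff hφ) (div_contDiff hφ hu) i x
  rw [e2]
  ring

theorem norm_cx_inv (hφ : SmP φ) {B : ℝ} (h2 : ∀ x, (φ x)⁻¹ ≤ B) (x : V n) :
    ‖(cx φ x)⁻¹‖ ≤ B := by
  unfold cx
  rw [norm_inv, Complex.norm_real, Real.norm_of_nonneg (hφ.2 x).le]
  exact h2 x

theorem norm_pd_div_le (hφ : SmP φ) {B : ℝ} {i : Fin n} {x : V n}
    (h1 : ‖pd i (cx φ) x‖ ≤ B) (h2 : ∀ x, (φ x)⁻¹ ≤ B) {u : V n → ℂ} (hu : ContDiff ℝ ∞ u)
    {E K L : ℝ} (hE : 0 ≤ E * K) (a1 : ‖u x‖ ≤ E * K) (a2 : ‖pd i u x‖ ≤ E * L) :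
    ‖cx φ x * pd i (fun y => u y * (cx φ y)⁻¹) x‖ ≤ E * (L + B ^ 2 * K) := by
  have hB : 0 ≤ B := (norm_nonneg _).trans h1
  rw [pd_div hφ hu]
  refine (norm_sub_le _ _).trans ?_
  rw [norm_mul, norm_mul]
  have h3 := norm_cx_inv hφ h2 x
  have h4 : ‖u x‖ * ‖(cx φ x)⁻¹‖ * ‖pd i (cx φ) x‖ ≤ E * K * B * B :=
    mul_le_mul (mul_le_mul a1 h3 (norm_nonneg _) hE) h1 (norm_nonneg _) (mul_nonneg hE hB)
  calc ‖pd i u x‖ + ‖u x‖ * ‖(cx φ x)⁻¹‖ * ‖pd i (cx φ) x‖ ≤ E * L + E * K * B * B :=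
        add_le_add a2 h4
    _ = E * (L + B ^ 2 * K) := by ring

theorem B_one (a b : V n → ℂ) (x : V n) :
    B (fun _ => 1) a b x = ∑ i, pd i a x * pd i b x := by
  unfold B
  refine Finset.sum_congr rfl fun i _ => ?_
  rw [Finset.sum_eq_single i]
  · simp
  · intro j _ hj
    show (((1 : Matrix (Fin n) (Fin n) ℝ) i j : ℝ) : ℂ) * pd i a x * pd j b x = 0
    rw [Matrix.one_apply_ne (Ne.symm hj)]
    simp
  · simp

theorem dv_one (f : V n → ℂ) (x : V n) : dv (fun _ => 1) f x = ∑ i, pd i (pd i f) x := by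
  unfold dv
  refine Finset.sum_congr rfl fun i _ => ?_
  congr 1
  funext y
  rw [Finset.sum_eq_single i]
  · simp
  · intro j _ hj
    show (((1 : Matrix (Fin n) (Fin n) ℝ) i j : ℝ) : ℂ) * pd j f y = 0
    rw [Matrix.one_apply_ne (Ne.symm hj)]
    simp
  · simp

theorem gf_eq (hφ : SmP φ) {f : V n → ℝ} (hf : ContDiff ℝ ∞ f) (x : V n) :
    gf φ f x = (∑ i, pd i (pd i (cx f)) x) +
      2 * (cx φ x)⁻¹ * ∑ i, pd i (cx φ) x * pd i (cx f) x := by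
  have h1m : SmM (fun _ : V n => (1 : Matrix (Fin n) (Fin n) ℝ)) := fun i j => contDiff_const
  have hps : sc (fun x => φ x ^ 2) =
      fun x => (φ x) ^ 2 • (fun _ : V n => (1 : Matrix (Fin n) (Fin n) ℝ)) x := rfl
  have h := dv_sq h1m hφ.1 (W := cx f) (Complex.ofRealCLM.contDiff.comp hf) x
  unfold gf
  rw [hps, h, B_one, dv_one]
  have h0 := cxp_ne hφ x
  have e : (φ x : ℂ) = cx φ x := rfl
  rw [e]
  field_simp
  ring

theorem gf_le (hφ : SmP φ) {B : ℝ} (h1 : Cl 1 B (cx φ)) (h2 : ∀ x, (φ x)⁻¹ ≤ B) {f : V n → ℝ}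
    (hf : ContDiff ℝ ∞ f) {a : ℝ} (h : Cl 2 a (cx f)) (x : V n) :
    ‖gf φ f x‖ ≤ n * (1 + 2 * B ^ 2) * a := by
  have hcf : ContDiff ℝ ∞ (cx f) := Complex.ofRealCLM.contDiff.comp hf
  have hB : 0 ≤ B := (inv_nonneg.2 (hφ.2 x).le).trans (h2 x)
  have k1 : ∀ i, ‖pd i (cx φ) x‖ ≤ B := fun i => by
    have := H159.cl_pdF (cxp_contDiff hφ) h1 i 0 le_rfl x
    rwa [norm_iteratedFDeriv_zero] at this
  have k2 : ∀ i, ‖pd i (cx f) x‖ ≤ a := fun i => by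
    have := H159.cl_pdF (k := 1) hcf h i 0 (by norm_num) x
    rwa [norm_iteratedFDeriv_zero] at this
  have k3 : ∀ i, ‖pd i (pd i (cx f)) x‖ ≤ a := fun i => by
    have := H159.cl_pdF (k := 0) (H705.UFin.contDiff_pdR hcf i) (H159.cl_pdF (k := 1) hcf h i) i 0
      le_rfl x
    rwa [norm_iteratedFDeriv_zero] at this
  rw [gf_eq hφ hf]
  refine (norm_add_le _ _).trans ?_
  have s1 : ‖∑ i, pd i (pd i (cx f)) x‖ ≤ n * a := by
    refine (norm_sum_le _ _).trans ((Finset.sum_le_sum fun i _ => k3 i).trans ?_)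
    simp
  have s2 : ‖∑ i, pd i (cx φ) x * pd i (cx f) x‖ ≤ n * (B * a) := by
    refine (norm_sum_le _ _).trans ((Finset.sum_le_sum (g := fun _ => B * a) fun i _ => ?_).trans ?_)
    · rw [norm_mul]
      exact mul_le_mul (k1 i) (k2 i) (norm_nonneg _) hB
    · simp
  rw [norm_mul, norm_mul]
  have s3 := norm_cx_inv hφ h2 x
  have s4 : ‖(2 : ℂ)‖ = 2 := by simp
  rw [s4]
  have s5 : 2 * ‖(cx φ x)⁻¹‖ * ‖∑ i, pd i (cx φ) x * pd i (cx f) x‖ ≤ 2 * B * (n * (B * a)) :=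
    mul_le_mul (mul_le_mul_of_nonneg_left s3 (by norm_num)) s2 (norm_nonneg _) (by positivity)
  calc _ ≤ (n : ℝ) * a + 2 * B * (n * (B * a)) := add_le_add s1 s5
    _ = _ := by ring

end ph

/-! ## The row -/

theorem EE_prod (i₀ : Fin n) {ξ ξ₁ ξ₂ : V n} (hn : nr ξ₁ = nr ξ₂)
    (h : ∀ j, ξ₁ j + ξ₂ j = 2 * ξ j) (x : V n) :
    H393.EE (zs 1 i₀ ξ₁) x * H393.EE (zs (-1) i₀ ξ₂) x = ex (-ξ) x := by
  rw [← exp_split i₀ hn h x, H393.EE, H393.EE, H393.LL_apply, H393.LL_apply]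

theorem entc (t : MF n) (φ : V n → ℝ) (i j : Fin n) (x : V n) :
    ((((fun x => φ x ^ 2 • t x - sc (fun x => φ x ^ 2) x) x i j : ℝ)) : ℂ) =
      cx φ x ^ 2 * ent t i j x := by
  show ((φ x ^ 2 * t x i j - φ x ^ 2 * (1 : Matrix (Fin n) (Fin n) ℝ) i j : ℝ) : ℂ) =
    ((φ x : ℝ) : ℂ) ^ 2 * ((t x i j - (1 : Matrix (Fin n) (Fin n) ℝ) i j : ℝ) : ℂ)
  push_cast
  ring

theorem scc (φ : V n → ℝ) (i j : Fin n) (x : V n) :
    ((sc (fun x => φ x ^ 2) x i j : ℝ) : ℂ) = cx φ x ^ 2 * (if i = j then 1 else 0) := by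
  show ((φ x ^ 2 * (1 : Matrix (Fin n) (Fin n) ℝ) i j : ℝ) : ℂ) = _
  rw [Matrix.one_apply]
  unfold cx
  split_ifs <;> simp

/-- The pointwise expansion. -/
theorem D_eq {φ : V n → ℝ} (t : MF n) (f : V n → ℝ) {U₁ U₂ W : V n → ℂ}
    (hU₂ : ContDiff ℝ ∞ U₂) (hW : ContDiff ℝ ∞ W) (x : V n) :
    B (fun x => φ x ^ 2 • t x - sc (fun x => φ x ^ 2) x) U₁ (fun y => U₂ y + W y) x -
      cx f x * B (sc (fun x => φ x ^ 2)) U₁ U₂ x =
    ∑ i, ∑ j, ((ent t i j x - (if i = j then (f x : ℂ) else 0)) *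
        ((cx φ x * pd i U₁ x) * (cx φ x * pd j U₂ x)) +
      ent t i j x * ((cx φ x * pd i U₁ x) * (cx φ x * pd j W x))) := by
  unfold B
  rw [Finset.mul_sum, ← Finset.sum_sub_distrib]
  refine Finset.sum_congr rfl fun i _ => ?_
  rw [Finset.mul_sum, ← Finset.sum_sub_distrib]
  refine Finset.sum_congr rfl fun j _ => ?_
  have h1 : pd j (fun y => U₂ y + W y) x = pd j U₂ x + pd j W x := by
    unfold pd
    rw [fderiv_fun_add (hU₂.differentiable (by simp) x) (hW.differentiable (by simp) x)]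
    rfl
  rw [entc, scc, h1]
  have h2 : cx f x = (f x : ℂ) := rfl
  rw [h2]
  split_ifs <;> ring

theorem D_le {α β γ : Fin n → ℂ} {e R : Fin n → Fin n → ℂ} {E₁ E₂ k₁ k₂ a b : ℝ}
    (hE₁ : 0 ≤ E₁) (hE : E₁ * E₂ = 1) (hk₁ : 0 ≤ k₁) (ha : 0 ≤ a) (hb : 0 ≤ b)
    (hα : ∀ i, ‖α i‖ ≤ E₁ * k₁) (hβ : ∀ i, ‖β i‖ ≤ E₂ * k₁) (hγ : ∀ i, ‖γ i‖ ≤ E₂ * k₂)
    (he : ∀ i j, ‖e i j‖ ≤ a) (hR : ∀ i j, ‖R i j‖ ≤ b) :
    ‖∑ i, ∑ j, (R i j * (α i * β j) + e i j * (α i * γ j))‖ ≤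
      (n : ℝ) ^ 2 * (b * (k₁ * k₁) + a * (k₁ * k₂)) := by
  have h1 : ∀ i j, ‖R i j * (α i * β j) + e i j * (α i * γ j)‖ ≤
      b * (k₁ * k₁) + a * (k₁ * k₂) := by
    intro i j
    refine (norm_add_le _ _).trans ?_
    rw [norm_mul, norm_mul, norm_mul, norm_mul]
    have h0 : 0 ≤ E₁ * k₁ := mul_nonneg hE₁ hk₁
    have m1 : ‖α i‖ * ‖β j‖ ≤ k₁ * k₁ := by
      calc ‖α i‖ * ‖β j‖ ≤ (E₁ * k₁) * (E₂ * k₁) :=
            mul_le_mul (hα i) (hβ j) (norm_nonneg _) h0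
        _ = (E₁ * E₂) * (k₁ * k₁) := by ring
        _ = k₁ * k₁ := by rw [hE, one_mul]
    have m2 : ‖α i‖ * ‖γ j‖ ≤ k₁ * k₂ := by
      calc ‖α i‖ * ‖γ j‖ ≤ (E₁ * k₁) * (E₂ * k₂) :=
            mul_le_mul (hα i) (hγ j) (norm_nonneg _) h0
        _ = (E₁ * E₂) * (k₁ * k₂) := by ring
        _ = k₁ * k₂ := by rw [hE, one_mul]
    exact add_le_add (mul_le_mul (hR i j) m1 (by positivity) hb)
      (mul_le_mul (he i j) m2 (by positivity) ha)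
  refine (norm_sum_le _ _).trans ((Finset.sum_le_sum fun i _ =>
    (norm_sum_le _ _).trans (Finset.sum_le_sum fun j _ => h1 i j)).trans ?_)
  simp only [Finset.sum_const, Finset.card_univ, Fintype.card_fin, nsmul_eq_mul]
  exact le_of_eq (by ring)

theorem dv_zero_off {s : MF n} {f : V n → ℂ} (hf0 : ∀ x ∉ core n, f x = 0) {x : V n}
    (hx : x ∉ core n) : dv s f x = 0 := by
  have hfl0 : ∀ i, ∀ x ∉ core n, flx s f i x = 0 := by
    intro i x hx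
    unfold flx
    exact Finset.sum_eq_zero fun j _ => by rw [pd_zero_off hf0 hx, mul_zero]
  show ∑ i, pd i (flx s f i) x = 0
  exact Finset.sum_eq_zero fun i _ => pd_zero_off (hfl0 i) hx i

theorem base_bound {φ : V n → ℝ} (hφ : SmP φ) {e : ℝ} (he : e = 1 ∨ e = -1) {i₀ : Fin n}
    {ξ' : V n} {t : MF n} {q : V n → ℝ} {c : Ix n → ℂ} {u : V n → ℂ}
    (S : SolQ (zs e i₀ ξ') (th0 i₀) t q c u) {X C₀ β : ℝ} (hn : nr ξ' = X) (hC₀ : 1 ≤ C₀)
    (hXC : C₀ ≤ X) (n₁ : nm 0 c ≤ C₀ / X)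
    (l₁ : ∀ i, nm 0 (fun k => lmz i₀ (zs e i₀ ξ') k i * c k) ≤ C₀) {i : Fin n} {x : V n}
    (h1 : ‖pd i (cx φ) x‖ ≤ β) (h2 : ∀ x, (φ x)⁻¹ ≤ β) :
    ‖cx φ x * pd i (fun y => u y * (cx φ y)⁻¹) x‖ ≤
      ‖H393.EE (zs e i₀ ξ') x‖ * ((8 + 2 * β ^ 2) * X) := by
  have hX0 : 0 < X := by linarith
  have hX1 : 1 ≤ X := hC₀.trans hXC
  have a1 : ‖u x‖ ≤ ‖H393.EE (zs e i₀ ξ') x‖ * 2 := by
    refine (norm_sol_le S x).trans (mul_le_mul_of_nonneg_left ?_ (norm_nonneg _))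
    have : C₀ / X ≤ 1 := by
      rw [div_le_one hX0]
      exact hXC
    linarith
  have a2 : ‖pd i u x‖ ≤ ‖H393.EE (zs e i₀ ξ') x‖ * (8 * X) := by
    refine (norm_pd_sol_le S i x).trans (mul_le_mul_of_nonneg_left ?_ (norm_nonneg _))
    have h3 := H650.zs_norm he i₀ ξ' i
    rw [hn] at h3
    have h4 := l₁ i
    have h5 := Real.pi_lt_d2
    nlinarith
  refine (norm_pd_div_le hφ h1 h2 (sol_contDiff S) (by positivity) a1 a2).trans ?_
  refine mul_le_mul_of_nonneg_left ?_ (norm_nonneg _)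
  have : 0 ≤ β ^ 2 := sq_nonneg β
  nlinarith

theorem P_sub {A C r s : ℂ} {d : ℝ} (hA : ‖A * C‖ = 1) (hr : ‖r‖ ≤ d) (hs : ‖s‖ ≤ d)
    (hd : 0 ≤ d) : ‖A * (1 + r) * (C * (1 + s)) - A * C‖ ≤ 2 * d + d * d := by
  have e : A * (1 + r) * (C * (1 + s)) - A * C = (A * C) * (r + s + r * s) := by ring
  rw [e, norm_mul, hA, one_mul]
  refine (norm_add_le _ _).trans ?_
  rw [norm_mul]
  have h1 : ‖r + s‖ ≤ 2 * d := (norm_add_le _ _).trans (by linarith)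
  exact add_le_add h1 (mul_le_mul hr hs (norm_nonneg _) hd)

theorem diff_bound {φ : V n → ℝ} (hφ : SmP φ) {z : Fin n → ℂ} {i₀ : Fin n}
    {t t' : MF n} {q q' : V n → ℝ} {c c' : Ix n → ℂ} {u u' : V n → ℂ}
    (S : SolQ z (th0 i₀) t q c u) (S' : SolQ z (th0 i₀) t' q' c' u') {X C₀ β a : ℝ}
    (hC₀ : 1 ≤ C₀) (hX1 : 1 ≤ X) (ha : 0 ≤ a) (d₃ : nm 0 (fun k => c' k - c k) ≤ C₀ * X * a)
    {i : Fin n} (m₃ : nm 0 (fun k => lmz i₀ z k i * (c' k - c k)) ≤ C₀ * X ^ 2 * a) {x : V n}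
    (h1 : ‖pd i (cx φ) x‖ ≤ β) (h2 : ∀ x, (φ x)⁻¹ ≤ β) :
    ‖cx φ x * pd i (fun y => (u' y - u y) * (cx φ y)⁻¹) x‖ ≤
      ‖H393.EE z x‖ * (C₀ * (1 + β ^ 2) * X ^ 2 * a) := by
  have e1 : ‖u' x - u x‖ ≤ ‖H393.EE z x‖ * (C₀ * X * a) :=
    (norm_diff_le S S' x).trans (mul_le_mul_of_nonneg_left d₃ (norm_nonneg _))
  have su := sol_contDiff S
  have su' := sol_contDiff S'
  have e2 : ‖pd i (fun y => u' y - u y) x‖ ≤ ‖H393.EE z x‖ * (C₀ * X ^ 2 * a) := by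
    have e3 : pd i (fun y => u' y - u y) x = pd i u' x - pd i u x := by
      unfold pd
      rw [fderiv_fun_sub (su'.differentiable (by simp) x) (su.differentiable (by simp) x)]
      rfl
    rw [e3]
    exact (norm_pd_diff_le S S' i x).trans (mul_le_mul_of_nonneg_left m₃ (norm_nonneg _))
  refine (norm_pd_div_le hφ h1 h2 (su'.sub su) (by positivity) e1 e2).trans ?_
  refine mul_le_mul_of_nonneg_left ?_ (norm_nonneg _)
  have e4 : X ≤ X ^ 2 := by nlinarith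
  have e5 : 0 ≤ C₀ * a * β ^ 2 := by positivity
  have e6 := mul_le_mul_of_nonneg_left e4 e5
  nlinarith

theorem k3_aux {C₀ X : ℝ} (hC₀ : 1 ≤ C₀) (hX1 : 1 ≤ X) :
    2 * (C₀ / X) + (C₀ / X) * (C₀ / X) ≤ 3 * C₀ ^ 2 / X := by
  have hX0 : 0 < X := by linarith
  have m1 : C₀ / X ≤ C₀ ^ 2 / X := by
    apply div_le_div_of_nonneg_right _ hX0.le
    nlinarith
  have m2 : (C₀ / X) * (C₀ / X) ≤ C₀ ^ 2 / X := by
    have : (C₀ / X) * (C₀ / X) = C₀ ^ 2 / X * (1 / X) := by ring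
    rw [this]
    have m3 : 1 / X ≤ 1 := by
      rw [div_le_one hX0]
      exact hX1
    have m4 : 0 ≤ C₀ ^ 2 / X := by positivity
    nlinarith
  have m5 : 3 * C₀ ^ 2 / X = 3 * (C₀ ^ 2 / X) := by ring
  rw [m5]
  linarith

theorem fin_aux {C₀ X a b A₁ A₂ A₃ T : ℝ} (hC₀ : 1 ≤ C₀) (hX0 : 0 < X) (ha : 0 ≤ a)
    (hb : 0 ≤ b) (h₁ : 0 ≤ A₁) (h₂ : 0 ≤ A₂) (h₃ : 0 ≤ A₃)
    (hT : T = A₁ * (X ^ 2 * b) + A₂ * (X ^ 3 * a ^ 2) + A₃ * (a / X)) :
    T ≤ (C₀ + A₁ + A₂ + A₃) * (a / X + X ^ 2 * b + X ^ 3 * a ^ 2) := by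
  have p1 : 0 ≤ a / X := by positivity
  have p2 : 0 ≤ X ^ 2 * b := by positivity
  have p3 : 0 ≤ X ^ 3 * a ^ 2 := by positivity
  have q1 : A₁ * (X ^ 2 * b) ≤ (C₀ + A₁ + A₂ + A₃) * (X ^ 2 * b) :=
    mul_le_mul_of_nonneg_right (by linarith) p2
  have q2 : A₂ * (X ^ 3 * a ^ 2) ≤ (C₀ + A₁ + A₂ + A₃) * (X ^ 3 * a ^ 2) :=
    mul_le_mul_of_nonneg_right (by linarith) p3
  have q3 : A₃ * (a / X) ≤ (C₀ + A₁ + A₂ + A₃) * (a / X) :=
    mul_le_mul_of_nonneg_right (by linarith) p1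
  rw [hT, mul_add, mul_add]
  linarith

/-- The identity, integrated. -/
theorem part2 {φ f : V n → ℝ} {t : MF n} (hφ : SmP φ) (hf : ContDiff ℝ ∞ f)
    (hf0 : ∀ x ∉ core n, f x = 0) (htm : SmM t) (ht1 : ∀ x ∉ core n, t x = 1)
    {u₁ u₂ w : V n → ℂ} (su₁ : ContDiff ℝ ∞ u₁) (su₂ : ContDiff ℝ ∞ u₂) (sw : ContDiff ℝ ∞ w)
    (b₁ : ∀ x ∈ cube n, dv (sc (fun x => φ x ^ 2)) (fun y => u₁ y * (cx φ y)⁻¹) x = 0)
    (b₂ : ∀ x ∈ cube n, dv (sc (fun x => φ x ^ 2)) (fun y => u₂ y * (cx φ y)⁻¹) x = 0)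
    (star : ∫ x, B (fun x => φ x ^ 2 • t x - sc (fun x => φ x ^ 2) x) (fun y => u₁ y * (cx φ y)⁻¹)
      (fun y => u₂ y * (cx φ y)⁻¹ + w y * (cx φ y)⁻¹) x = 0) {M : ℝ} (hM : 0 ≤ M)
    (DM : ∀ x, ‖∑ i, ∑ j, ((ent t i j x - (if i = j then (f x : ℂ) else 0)) *
        ((cx φ x * pd i (fun y => u₁ y * (cx φ y)⁻¹) x) *
          (cx φ x * pd j (fun y => u₂ y * (cx φ y)⁻¹) x)) +
      ent t i j x * ((cx φ x * pd i (fun y => u₁ y * (cx φ y)⁻¹) x) *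
        (cx φ x * pd j (fun y => w y * (cx φ y)⁻¹) x)))‖ ≤ M) :
    ‖∫ x, gf φ f x * (u₁ x * u₂ x)‖ ≤ 2 * M := by
  set U₁ : V n → ℂ := fun y => u₁ y * (cx φ y)⁻¹ with hU₁
  set U₂ : V n → ℂ := fun y => u₂ y * (cx φ y)⁻¹ with hU₂
  set W : V n → ℂ := fun y => w y * (cx φ y)⁻¹ with hW
  have sU₁ : ContDiff ℝ ∞ U₁ := div_contDiff hφ su₁
  have sU₂ : ContDiff ℝ ∞ U₂ := div_contDiff hφ su₂
  have sW : ContDiff ℝ ∞ W := div_contDiff hφ sw
  have hSm : SmM (sc (fun x => φ x ^ 2)) := smM_scF (hφ.1.pow 2)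
  have hSs : ∀ x, (sc (fun x => φ x ^ 2) x).IsSymm := symm_scF _
  have hTm : SmM (fun x => φ x ^ 2 • t x - sc (fun x => φ x ^ 2) x) := fun i j =>
    ((hφ.1.pow 2).mul (htm i j)).sub (hSm i j)
  have hcf : ContDiff ℝ ∞ (cx f) := Complex.ofRealCLM.contDiff.comp hf
  have hcf0 : ∀ x ∉ core n, cx f x = 0 := fun x hx => by
    unfold cx
    rw [hf0 x hx, Complex.ofReal_zero]
  have zB : ∀ x ∉ core n, B (fun x => φ x ^ 2 • t x - sc (fun x => φ x ^ 2) x) U₁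
      (fun y => U₂ y + W y) x = 0 := by
    intro x hx
    unfold B
    refine Finset.sum_eq_zero fun i _ => Finset.sum_eq_zero fun j _ => ?_
    rw [entc]
    have : ent t i j x = 0 := by
      unfold ent
      rw [ht1 x hx, sub_self, Complex.ofReal_zero]
    rw [this, mul_zero, zero_mul, zero_mul]
  have zf : ∀ x ∉ core n, cx f x * B (sc (fun x => φ x ^ 2)) U₁ U₂ x = 0 := fun x hx => by
    rw [hcf0 x hx, zero_mul]
  have iT : Integrable (fun x => B (fun x => φ x ^ 2 • t x - sc (fun x => φ x ^ 2) x) U₁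
      (fun y => U₂ y + W y) x) :=
    (continuous_B hTm sU₁ (sU₂.add sW)).integrable_of_hasCompactSupport (hcs_of zB)
  have iF : Integrable (fun x => cx f x * B (sc (fun x => φ x ^ 2)) U₁ U₂ x) :=
    (hcf.continuous.mul (continuous_B hSm sU₁ sU₂)).integrable_of_hasCompactSupport (hcs_of zf)
  have intD : ∫ x, (B (fun x => φ x ^ 2 • t x - sc (fun x => φ x ^ 2) x) U₁
      (fun y => U₂ y + W y) x - cx f x * B (sc (fun x => φ x ^ 2)) U₁ U₂ x) =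
        -∫ x, cx f x * B (sc (fun x => φ x ^ 2)) U₁ U₂ x := by
    rw [integral_sub iT iF, star, zero_sub]
  have ID : ‖∫ x, cx f x * B (sc (fun x => φ x ^ 2)) U₁ U₂ x‖ ≤ M := by
    rw [← norm_neg, ← intD]
    refine int_le (fun x hx => ?_) hM fun x => ?_
    · rw [zB x hx, zf x hx, sub_zero]
    · rw [D_eq t f sU₂ sW x]
      exact DM x
  have hmain := main_id hSm hSs hcf hcf0 sU₁ sU₂ b₁ b₂
  have e2 : ∫ x, cx f x * (2 * B (sc (fun x => φ x ^ 2)) U₁ U₂ x) =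
      2 * ∫ x, cx f x * B (sc (fun x => φ x ^ 2)) U₁ U₂ x := by
    have : (fun x => cx f x * (2 * B (sc (fun x => φ x ^ 2)) U₁ U₂ x)) =
        fun x => 2 * (cx f x * B (sc (fun x => φ x ^ 2)) U₁ U₂ x) := by
      funext x
      ring
    rw [this, integral_const_mul]
  have e3 : ∀ x, (U₁ x * U₂ x) * dv (sc (fun x => φ x ^ 2)) (cx f) x =
      gf φ f x * (u₁ x * u₂ x) := by
    intro x
    have e4 : cx φ x = (φ x : ℂ) := rfl
    simp only [hU₁, hU₂]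
    unfold gf
    rw [e4]
    ring
  have e5 : ∫ x, gf φ f x * (u₁ x * u₂ x) =
      2 * ∫ x, cx f x * B (sc (fun x => φ x ^ 2)) U₁ U₂ x := by
    rw [← e2, hmain]
    exact integral_congr_ae (Filter.Eventually.of_forall fun x => (e3 x).symm)
  rw [e5, norm_mul]
  have : ‖(2 : ℂ)‖ = 2 := by simp
  rw [this]
  exact mul_le_mul_of_nonneg_left ID (by norm_num)

/-- From the integral against `u₁ u₂` to the Fourier transform. -/
theorem part3 {φ f : V n → ℝ} (hφ : SmP φ) (hf : ContDiff ℝ ∞ f) (hf0 : ∀ x ∉ core n, f x = 0)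
    {u₁ u₂ : V n → ℂ} (su₁ : ContDiff ℝ ∞ u₁) (su₂ : ContDiff ℝ ∞ u₂) (ξ : V n) {M G d : ℝ}
    (hG : 0 ≤ G) (hd : 0 ≤ d) (hM : ‖∫ x, gf φ f x * (u₁ x * u₂ x)‖ ≤ M)
    (h1 : ∀ x, ‖gf φ f x‖ ≤ G) (h2 : ∀ x, ‖u₁ x * u₂ x - ex (-ξ) x‖ ≤ d) :
    ‖ft (gf φ f) ξ‖ ≤ M + G * d := by
  have hSm : SmM (sc (fun x => φ x ^ 2)) := smM_scF (hφ.1.pow 2)
  have hcf : ContDiff ℝ ∞ (cx f) := Complex.ofRealCLM.contDiff.comp hf
  have hcf0 : ∀ x ∉ core n, cx f x = 0 := fun x hx => by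
    unfold cx
    rw [hf0 x hx, Complex.ofReal_zero]
  have hg0 : ∀ x ∉ core n, gf φ f x = 0 := by
    intro x hx
    unfold gf
    rw [dv_zero_off hcf0 hx, mul_zero]
  have hgc : Continuous (gf φ f) := by
    have h1 : Continuous fun x => ((φ x : ℂ) ^ 2)⁻¹ :=
      ((cxp_contDiff hφ).continuous.pow 2).inv₀ fun x => pow_ne_zero 2 (cxp_ne hφ x)
    exact h1.mul (contDiff_dvF hSm hcf).continuous
  have hexc : Continuous (fun x => ex (-ξ) x) := (H158.contDiff_ex (-ξ)).continuous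
  have j1 : Integrable (fun x => gf φ f x * (u₁ x * u₂ x)) :=
    (hgc.mul (su₁.continuous.mul su₂.continuous)).integrable_of_hasCompactSupport
      (hcs_of fun x hx => by
        show gf φ f x * (u₁ x * u₂ x) = 0
        rw [hg0 x hx, zero_mul])
  have j2 : Integrable (fun x => gf φ f x * (u₁ x * u₂ x - ex (-ξ) x)) :=
    (hgc.mul ((su₁.continuous.mul su₂.continuous).sub hexc)).integrable_of_hasCompactSupport
      (hcs_of fun x hx => by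
        show gf φ f x * (u₁ x * u₂ x - ex (-ξ) x) = 0
        rw [hg0 x hx, zero_mul])
  have j3 : ft (gf φ f) ξ = (∫ x, gf φ f x * (u₁ x * u₂ x)) -
      ∫ x, gf φ f x * (u₁ x * u₂ x - ex (-ξ) x) := by
    rw [← integral_sub j1 j2]
    unfold ft
    refine integral_congr_ae (Filter.Eventually.of_forall fun x => ?_)
    show gf φ f x * ex (-ξ) x =
      gf φ f x * (u₁ x * u₂ x) - gf φ f x * (u₁ x * u₂ x - ex (-ξ) x)
    ring
  have j5 : ‖∫ x, gf φ f x * (u₁ x * u₂ x - ex (-ξ) x)‖ ≤ G * d := by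
    refine int_le (fun x hx => by rw [hg0 x hx, zero_mul]) (mul_nonneg hG hd) fun x => ?_
    rw [norm_mul]
    exact mul_le_mul (h1 x) (h2 x) (norm_nonneg _) hG
  rw [j3]
  exact (norm_sub_le _ _).trans (add_le_add hM j5)

/-- The star identity on the whole space. -/
theorem part1 {Ω : Set (V n)} {φ q₀ : V n → ℝ} {t : MF n} {q : V n → ℝ} (hB : Bt Ω φ q₀ t q)
    {u₁ u₂ u₃ : V n → ℂ} (su₁ : ContDiff ℝ ∞ u₁) (su₂ : ContDiff ℝ ∞ u₂)
    (su₃ : ContDiff ℝ ∞ u₃)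
    (e₁ : ∀ x ∈ cube n, dv (fun _ => 1) u₁ x = (q₀ x : ℂ) * u₁ x)
    (e₃ : ∀ x ∈ cube n, dv t u₃ x = (q x : ℂ) * u₃ x) :
    (∀ x ∈ cube n, dv (sc (fun x => φ x ^ 2)) (fun y => u₁ y * (cx φ y)⁻¹) x = 0) ∧
    ∫ x, B (fun x => φ x ^ 2 • t x - sc (fun x => φ x ^ 2) x) (fun y => u₁ y * (cx φ y)⁻¹)
      (fun y => u₂ y * (cx φ y)⁻¹ + (u₃ y - u₂ y) * (cx φ y)⁻¹) x = 0 := by
  have hφ : SmP φ := hB.ba.p
  have h1m : SmM (fun _ : V n => (1 : Matrix (Fin n) (Fin n) ℝ)) := fun i j => contDiff_const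
  have h1s : ∀ x : V n, ((fun _ : V n => (1 : Matrix (Fin n) (Fin n) ℝ)) x).IsSymm :=
    fun _ => Matrix.isSymm_one
  have hps : sc (fun x => φ x ^ 2) =
      fun x => (φ x) ^ 2 • (fun _ : V n => (1 : Matrix (Fin n) (Fin n) ℝ)) x := rfl
  have hcub : ∀ x ∈ Ω, x ∈ cube n := fun x hx => core_cube (H650.bal_sub (hB.sub hx))
  have b₁ : ∀ x ∈ cube n, dv (sc (fun x => φ x ^ 2)) (fun y => u₁ y * (cx φ y)⁻¹) x = 0 := by
    intro x hx
    rw [hps, dv_sq_div h1m h1s hφ su₁, e₁ x hx, hB.ba.eq x]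
    have e4 : cx φ x = (φ x : ℂ) := rfl
    rw [e4]
    ring
  refine ⟨b₁, ?_⟩
  have hU₃ : (fun y => u₂ y * (cx φ y)⁻¹ + (u₃ y - u₂ y) * (cx φ y)⁻¹) =
      fun y => u₃ y * (cx φ y)⁻¹ := by
    funext y
    ring
  rw [hU₃]
  have b₃ : ∀ x ∈ Ω, dv (fun x => (φ x) ^ 2 • t x) (fun y => u₃ y * (cx φ y)⁻¹) x = 0 := by
    intro x hx
    rw [dv_sq_div hB.sm hB.sy hφ su₃, e₃ x (hcub x hx), hB.eq x]
    have e4 : cx φ x = (φ x : ℂ) := rfl
    rw [e4]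
    ring
  have star := hB.st _ _ (div_contDiff hφ su₁) (div_contDiff hφ su₃)
    (fun x hx => b₁ x (hcub x hx)) b₃
  rw [bl_eq, setIntegral_eq_integral_of_forall_compl_eq_zero] at star
  · exact star
  · intro x hx
    unfold B
    refine Finset.sum_eq_zero fun i _ => Finset.sum_eq_zero fun j _ => ?_
    rw [entc]
    have : ent t i j x = 0 := by
      unfold ent
      rw [hB.off x hx, sub_self, Complex.ofReal_zero]
    rw [this, mul_zero, zero_mul, zero_mul]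

/-- **Row C_SF** -/
theorem sf (_hID : RowIDC) (hCG : RowCGC) (hBA : RowBAC) : RowSFC := by
  intro n β
  obtain ⟨C₀, hC₀, hC⟩ := hCG n 0 β
  obtain ⟨_, _, hBA3, _⟩ := hBA
  set N : ℝ := (n : ℝ) with hN
  have hN0 : 0 ≤ N := Nat.cast_nonneg n
  set K₁ : ℝ := 8 + 2 * β ^ 2 with hK₁
  set K₂ : ℝ := C₀ * (1 + β ^ 2) with hK₂
  have hK₁0 : 0 ≤ K₁ := by positivity
  have hK₂0 : 0 ≤ K₂ := by positivity
  set G : ℝ := N * (1 + 2 * β ^ 2) with hG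
  have hG0 : 0 ≤ G := by positivity
  set A₁ : ℝ := 2 * N ^ 2 * (K₁ * K₁) with hA₁
  set A₂ : ℝ := 2 * N ^ 2 * (K₁ * K₂) with hA₂
  set A₃ : ℝ := 3 * C₀ ^ 2 * G with hA₃
  have hA₁0 : 0 ≤ A₁ := by positivity
  have hA₂0 : 0 ≤ A₂ := by positivity
  have hA₃0 : 0 ≤ A₃ := by positivity
  refine ⟨C₀ + A₁ + A₂ + A₃, by linarith, ?_⟩
  intro i₀ ξ p hξ hp hp1 hpξ X hX hX2 Ω φ q₀ t q hB hq₀ hφ1 hφB a ha hS ha1 f hf hf0 hf2 b hb hR
  have hφ : SmP φ := hB.ba.p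
  have hXC : C₀ ≤ X := by linarith
  have hX1 : 1 ≤ X := hC₀.trans hXC
  have hX0 : 0 < X := by linarith
  have hnξ : 0 ≤ nr ξ := H650.nr_nonneg ξ
  -- the frequencies
  have hρ0 : 0 ≤ X ^ 2 - nr ξ ^ 2 := by nlinarith
  set ρ : ℝ := √(X ^ 2 - nr ξ ^ 2) with hρ
  have hρ2 : ρ ^ 2 = X ^ 2 - nr ξ ^ 2 := Real.sq_sqrt hρ0
  set ξ₁ : V n := fun j => ξ j + (-ρ) * p j with hξ₁
  set ξ₂ : V n := fun j => ξ j + ρ * p j with hξ₂
  have hn₁ : nr ξ₁ = X := nr_shift hpξ hp1 hX0.le (by rw [neg_sq]; exact hρ2)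
  have hn₂ : nr ξ₂ = X := nr_shift hpξ hp1 hX0.le hρ2
  have hsum : ∀ j, ξ₁ j + ξ₂ j = 2 * ξ j := fun j => by
    simp only [hξ₁, hξ₂]
    ring
  have h₁0 : ξ₁ i₀ = 0 := by simp only [hξ₁, hξ, hp]; ring
  have h₂0 : ξ₂ i₀ = 0 := by simp only [hξ₂, hξ, hp]; ring
  -- supports
  obtain ⟨zq₀, zq, _⟩ := hBA3 Ω φ q₀ t q hB
  have hnb : ∀ x ∉ core n, x ∉ bal n := fun x hx h => hx (H650.bal_sub h)
  have hnΩ : ∀ x ∉ core n, x ∉ Ω := fun x hx h => hnb x hx (hB.sub h)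
  have ht1 : ∀ x ∉ core n, t x = 1 := fun x hx => hB.off x (hnΩ x hx)
  have ha2 : C₀ * X * a ≤ 1 := by
    refine le_trans ?_ ha1
    have : 0 ≤ X * a := by positivity
    nlinarith
  have hS' : Sz (0 + n + 1) a t q₀ q := by rw [zero_add]; exact hS
  have hq₀' : Cl (0 + n + 1) β (cx q₀) := by rw [zero_add]; exact hq₀
  obtain ⟨c₁, c₁', u₁, u₁', S₁, -, n₁, l₁, -, -⟩ := hC i₀ 1 ξ₁ (Or.inl rfl) h₁0
    (by rw [hn₁]; exact hXC) t q₀ q hB.sm hB.ba.sq hB.sq ht1 (fun x hx => zq₀ x (hnb x hx))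
    (fun x hx => zq x (hnb x hx)) hq₀' a ha hS' (by rw [hn₁]; exact ha2)
  obtain ⟨c₂, c₃, u₂, u₃, S₂, S₃, n₂, l₂, d₃, m₃⟩ := hC i₀ (-1) ξ₂ (Or.inr rfl) h₂0
    (by rw [hn₂]; exact hXC) t q₀ q hB.sm hB.ba.sq hB.sq ht1 (fun x hx => zq₀ x (hnb x hx))
    (fun x hx => zq x (hnb x hx)) hq₀' a ha hS' (by rw [hn₂]; exact ha2)
  rw [hn₁] at n₁
  rw [hn₂] at n₂ d₃ m₃
  have su₁ := sol_contDiff S₁
  have su₂ := sol_contDiff S₂
  have su₃ := sol_contDiff S₃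
  -- the exponentials
  have hEE : ∀ x, H393.EE (zs 1 i₀ ξ₁) x * H393.EE (zs (-1) i₀ ξ₂) x = ex (-ξ) x :=
    EE_prod i₀ (hn₁.trans hn₂.symm) hsum
  have hEn : ∀ x, ‖H393.EE (zs 1 i₀ ξ₁) x‖ * ‖H393.EE (zs (-1) i₀ ξ₂) x‖ = 1 := fun x => by
    rw [← norm_mul, hEE, H393.norm_ex]
  -- the star identity
  obtain ⟨b₁, star⟩ := part1 hB su₁ su₂ su₃ S₁.eq S₃.eq
  obtain ⟨b₂, -⟩ := part1 hB su₂ su₂ su₃ S₂.eq S₃.eq
  -- the bound
  have hpφ : ∀ i x, ‖pd i (cx φ) x‖ ≤ β := fun i x => by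
    have := H159.cl_pdF (cxp_contDiff hφ) hφ1 i 0 le_rfl x
    rwa [norm_iteratedFDeriv_zero] at this
  have hα := fun i x => base_bound hφ (Or.inl rfl) S₁ hn₁ hC₀ hXC n₁ l₁ (hpφ i x) hφB
  have hβ := fun i x => base_bound hφ (Or.inr rfl) S₂ hn₂ hC₀ hXC n₂ l₂ (hpφ i x) hφB
  have hγ : ∀ i x, ‖cx φ x * pd i (fun y => (u₃ y - u₂ y) * (cx φ y)⁻¹) x‖ ≤
      ‖H393.EE (zs (-1) i₀ ξ₂) x‖ * (K₂ * X ^ 2 * a) := fun i x =>
    diff_bound hφ S₂ S₃ hC₀ hX1 ha d₃ (m₃ i) (hpφ i x) hφB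
  have he : ∀ x i j, ‖ent t i j x‖ ≤ a := fun x i j => by
    have := hS.1 i j 0 (Nat.zero_le _) x
    rwa [norm_iteratedFDeriv_zero] at this
  have hM0 : 0 ≤ N ^ 2 * (b * ((K₁ * X) * (K₁ * X)) + a * ((K₁ * X) * (K₂ * X ^ 2 * a))) := by
    positivity
  have P2 := part2 hφ hf hf0 hB.sm ht1 su₁ su₂ (su₃.sub su₂) b₁ b₂ star hM0 fun x =>
    D_le (norm_nonneg _) (hEn x) (by positivity) ha hb (fun i => hα i x) (fun i => hβ i x)
      (fun i => hγ i x) (he x) (fun i j => hR i j x)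
  have hd0 : 0 ≤ C₀ / X := by positivity
  have k2 : ∀ x, ‖u₁ x * u₂ x - ex (-ξ) x‖ ≤ 3 * C₀ ^ 2 / X := by
    intro x
    have k2 : ‖u₁ x * u₂ x - ex (-ξ) x‖ ≤ 2 * (C₀ / X) + (C₀ / X) * (C₀ / X) := by
      rw [← hEE x, congrFun (sol_eq S₁) x, congrFun (sol_eq S₂) x]
      exact P_sub (by rw [norm_mul]; exact hEn x) ((H393.norm_Es_le S₁.rc _ _).trans n₁)
        ((H393.norm_Es_le S₂.rc _ _).trans n₂) hd0
    exact k2.trans (k3_aux hC₀ hX1)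
  have P3 := part3 hφ hf hf0 su₁ su₂ ξ (G := G * a) (d := 3 * C₀ ^ 2 / X) (by positivity)
    (by positivity) P2 (fun x => gf_le hφ hφ1 hφB hf hf2 x) k2
  refine P3.trans (fin_aux hC₀ hX0 ha hb hA₁0 hA₂0 hA₃0 ?_)
  rw [hA₁, hA₂, hA₃]
  ring

end Vale.Agent.P088.LR.H109C
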