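import Vale.Agent.P088.H109.EnX
import Vale.Agent.P088.H43.B.Bd
import Vale.Agent.P088.H72.X.Defs2

/-!
# P088, conformally flat base: rows X_BD and Y_BD (the boundary step)
-/

open MeasureTheory Set Filter
open scoped ContDiff Matrix Topology

noncomputable section

namespace Vale.Agent.P088.H109

open Vale.Agent.P088.LR Vale.Agent.P088.LR.B Vale.Agent.P088.LR.B.H43 Vale.Agent.P088.H639
open Vale.Agent.P088.LR.CF (sc)

variable {n : ℕ} {ρ : V n → ℝ}

/-- contraction of a symmetric form with null vector `ν` against `ν + i τ` -/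
lemma contrX {β : Fin n → Fin n → ℝ} (hs : ∀ i j, β i j = β j i) {ν τ : V n}
    (hβ : ∀ i, ∑ j, β i j * ν j = 0) :
    ∑ i, ∑ j, (β i j : ℂ) * (((ν i : ℂ) + Complex.I * τ i) * ((ν j : ℂ) - Complex.I * τ j)) =
      ((∑ i, ∑ j, β i j * (τ i * τ j) : ℝ) : ℂ) := contr hs hβ

/-- the estimate at a boundary point -/
lemma keyX (hcon : BX.RowCON) (hρ : Dom ρ) {σ : V n → ℝ} (hσ : SmP σ) {t : MF n} {K : ℝ}
    (hK : 0 ≤ K)
    (hen : ∀ U : V n → ℂ, ContDiff ℝ ∞ U → (∀ x ∈ Om ρ, dv (sc σ) U x = 0) →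
      ‖bl (Om ρ) (fun x => t x - sc σ x) U (fun x => (starRingEnd ℂ) (U x))‖ ≤
        K * ∫ x in Om ρ, ∑ i, ∑ j, |t x i j - sc σ x i j| ^ 2 * ‖pd j U x‖ ^ 2)
    {m : ℕ} {b : Fin n → Fin n → V n → ℝ} (hb : ∀ i j, ContDiff ℝ ∞ (b i j))
    (hs : ∀ i j x, b i j x = b j i x)
    (hh : ∀ x i j, t x i j - sc σ x i j = ρ x ^ m * b i j x)
    {p : V n} (hp : ρ p = 0) {ν τ : V n} (h1 : ∑ i, ν i ^ 2 = 1) (h2 : ∑ i, τ i ^ 2 = 1)
    (h3 : ∑ i, ν i * τ i = 0) (hν : ∃ c > 0, ∀ i, pd i ρ p = c * ν i)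
    (hbν : ∀ i, ∑ j, b i j p * ν j = 0) :
    |∑ i, ∑ j, b i j p * (τ i * τ j)| ≤ 2 * K * (ρ p ^ m * ∑ i, ∑ j, b i j p ^ 2) := by
  have cb : ∀ i j, Continuous (b i j) := fun i j => (hb i j).continuous
  have cm : Continuous fun x => ρ x ^ m := hρ.sm.continuous.pow m
  obtain ⟨U, hU, hUh, hUZ⟩ := hcon ρ hρ σ hσ p hp ν τ h1 h2 h3 hν
  obtain ⟨Z, hZ, hlim⟩ := hUZ m
  set q : ℝ := ∑ i, ∑ j, b i j p * (τ i * τ j) with hq
  set ζ : Fin n → ℂ := fun i => (ν i : ℂ) + Complex.I * τ i with hζ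
  have hζc : ∀ j, (starRingEnd ℂ) (ζ j) = (ν j : ℂ) - Complex.I * τ j := fun j => by
    simp only [hζ, map_add, map_mul, Complex.conj_ofReal, Complex.conj_I]
    ring
  have hθq : ∑ i, ∑ j, (b i j p : ℂ) * (ζ i * (starRingEnd ℂ) (ζ j)) = (q : ℂ) := by
    simp only [hζc]
    exact contrX (fun i j => hs i j p) hbν
  have cU : ∀ N i, Continuous (pd i (U N)) := fun N => pd_cont (hU N)
  have cUc : ∀ N i, Continuous fun x => (starRingEnd ℂ) (pd i (U N) x) := fun N i =>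
    Complex.continuous_conj.comp (cU N i)
  have cr : Continuous fun x => ((ρ x ^ m : ℝ) : ℂ) := Complex.continuous_ofReal.comp cm
  -- left side
  have L1 : Tendsto (fun N => ((Z N : ℝ) : ℂ)⁻¹ *
      bl (Om ρ) (fun x => t x - sc σ x) (U N) (fun x => (starRingEnd ℂ) (U N x))) atTop
      (𝓝 (q : ℂ)) := by
    have h4 : Tendsto (fun N => ∑ i, ∑ j, ((Z N : ℝ) : ℂ)⁻¹ * ∫ x in Om ρ,
        ((ρ x ^ m : ℝ) : ℂ) * ((b i j x : ℝ) : ℂ) * pd i (U N) x *
          (starRingEnd ℂ) (pd j (U N) x)) atTop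
        (𝓝 (∑ i, ∑ j, ((b i j p : ℝ) : ℂ) * ζ i * (starRingEnd ℂ) (ζ j))) :=
      tendsto_finsetSum _ fun i _ => tendsto_finsetSum _ fun j _ =>
        hlim (fun x => ((b i j x : ℝ) : ℂ))
          (Complex.continuous_ofReal.comp (cb i j)).continuousOn i j
    have h5 : ∑ i, ∑ j, ((b i j p : ℝ) : ℂ) * ζ i * (starRingEnd ℂ) (ζ j) = (q : ℂ) := by
      rw [← hθq]
      exact Finset.sum_congr rfl fun i _ => Finset.sum_congr rfl fun j _ => by ring
    rw [h5] at h4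
    refine h4.congr fun N => ?_
    simp only [← Finset.mul_sum]
    congr 1
    have i1 : ∀ i j, IntegrableOn (fun x => ((ρ x ^ m : ℝ) : ℂ) * ((b i j x : ℝ) : ℂ) *
        pd i (U N) x * (starRingEnd ℂ) (pd j (U N) x)) (Om ρ) := fun i j =>
      om_int hρ (((cr.mul (Complex.continuous_ofReal.comp (cb i j))).mul (cU N i)).mul (cUc N j))
    unfold bl
    rw [← (integral_finsetSum _ fun i _ => integrable_finsetSum _ fun j _ => i1 i j).trans
      (Finset.sum_congr rfl fun i _ => integral_finsetSum _ fun j _ => i1 i j)]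
    refine integral_congr_ae (Eventually.of_forall fun x => ?_)
    simp only [pd_conj (hU N)]
    refine Finset.sum_congr rfl fun i _ => Finset.sum_congr rfl fun j _ => ?_
    have h6 : (t x - sc σ x) i j = ρ x ^ m * b i j x := by
      rw [← hh x i j]
      rfl
    rw [h6]
    push_cast
    ring
  -- right side
  have R1 : Tendsto (fun N => ((Z N : ℝ) : ℂ)⁻¹ * ((∫ x in Om ρ, ∑ i, ∑ j,
      |t x i j - sc σ x i j| ^ 2 * ‖pd j (U N) x‖ ^ 2 : ℝ) : ℂ)) atTop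
      (𝓝 (((ρ p ^ m * ∑ i, ∑ j, b i j p ^ 2 * (ν j ^ 2 + τ j ^ 2) : ℝ)) : ℂ)) := by
    have h4 : Tendsto (fun N => ∑ i, ∑ j, ((Z N : ℝ) : ℂ)⁻¹ * ∫ x in Om ρ,
        ((ρ x ^ m : ℝ) : ℂ) * ((ρ x ^ m * b i j x ^ 2 : ℝ) : ℂ) * pd j (U N) x *
          (starRingEnd ℂ) (pd j (U N) x)) atTop
        (𝓝 (∑ i, ∑ j, ((ρ p ^ m * b i j p ^ 2 : ℝ) : ℂ) * ζ j * (starRingEnd ℂ) (ζ j))) :=
      tendsto_finsetSum _ fun i _ => tendsto_finsetSum _ fun j _ =>
        hlim (fun x => ((ρ x ^ m * b i j x ^ 2 : ℝ) : ℂ))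
          (Complex.continuous_ofReal.comp (cm.mul ((cb i j).pow 2))).continuousOn j j
    have h5 : ∑ i, ∑ j, ((ρ p ^ m * b i j p ^ 2 : ℝ) : ℂ) * ζ j * (starRingEnd ℂ) (ζ j) =
        ((ρ p ^ m * ∑ i, ∑ j, b i j p ^ 2 * (ν j ^ 2 + τ j ^ 2) : ℝ) : ℂ) := by
      rw [Finset.mul_sum]
      push_cast
      refine Finset.sum_congr rfl fun i _ => ?_
      rw [Finset.mul_sum]
      refine Finset.sum_congr rfl fun j _ => ?_
      rw [hζc]
      simp only [hζ]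
      linear_combination (-((ρ p : ℂ) ^ m * (b i j p : ℂ) ^ 2 * (τ j : ℂ) ^ 2)) * Complex.I_sq
    rw [h5] at h4
    refine h4.congr fun N => ?_
    simp only [← Finset.mul_sum]
    congr 1
    have i1 : ∀ i j, IntegrableOn (fun x => ((ρ x ^ m : ℝ) : ℂ) *
        ((ρ x ^ m * b i j x ^ 2 : ℝ) : ℂ) * pd j (U N) x * (starRingEnd ℂ) (pd j (U N) x))
        (Om ρ) := fun i j =>
      om_int hρ (((cr.mul (Complex.continuous_ofReal.comp (cm.mul ((cb i j).pow 2)))).mul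
        (cU N j)).mul (cUc N j))
    rw [← (integral_finsetSum _ fun i _ => integrable_finsetSum _ fun j _ => i1 i j).trans
      (Finset.sum_congr rfl fun i _ => integral_finsetSum _ fun j _ => i1 i j)]
    refine Eq.trans ?_ integral_ofReal
    refine integral_congr_ae (Eventually.of_forall fun x => ?_)
    show _ = ((∑ i, ∑ j, |t x i j - sc σ x i j| ^ 2 * ‖pd j (U N) x‖ ^ 2 : ℝ) : ℂ)
    simp only [hh, sq_abs]
    push_cast
    refine Finset.sum_congr rfl fun i _ => Finset.sum_congr rfl fun j _ => ?_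
    have h6 : ((‖pd j (U N) x‖ : ℝ) : ℂ) ^ 2 = pd j (U N) x * (starRingEnd ℂ) (pd j (U N) x) := by
      rw [Complex.mul_conj, Complex.normSq_eq_norm_sq]
      push_cast
      rfl
    rw [h6]
    ring
  -- comparison
  have h7 : ‖(q : ℂ)‖ ≤ K * ‖((ρ p ^ m * ∑ i, ∑ j, b i j p ^ 2 * (ν j ^ 2 + τ j ^ 2) : ℝ) : ℂ)‖ := by
    refine le_of_tendsto_of_tendsto' L1.norm (R1.norm.const_mul K) fun N => ?_
    rw [norm_mul, norm_mul, Complex.norm_real]
    have h8 : 0 ≤ ∫ x in Om ρ, ∑ i, ∑ j, |t x i j - sc σ x i j| ^ 2 * ‖pd j (U N) x‖ ^ 2 :=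
      integral_nonneg fun x => Finset.sum_nonneg fun i _ => Finset.sum_nonneg fun j _ => by
        positivity
    rw [Real.norm_of_nonneg h8]
    have h9 := mul_le_mul_of_nonneg_left (hen (U N) (hU N) (hUh N))
      (norm_nonneg (((Z N : ℝ) : ℂ)⁻¹))
    linarith
  rw [Complex.norm_real, Complex.norm_real, Real.norm_eq_abs, Real.norm_eq_abs] at h7
  have hρm : 0 ≤ ρ p ^ m := by rw [hp]; positivity
  have h10 : ∀ j, ν j ^ 2 + τ j ^ 2 ≤ 2 := fun j => by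
    have a1 : ν j ^ 2 ≤ 1 := h1 ▸ Finset.single_le_sum (f := fun i => ν i ^ 2)
      (fun i _ => sq_nonneg _) (Finset.mem_univ j)
    have a2 : τ j ^ 2 ≤ 1 := h2 ▸ Finset.single_le_sum (f := fun i => τ i ^ 2)
      (fun i _ => sq_nonneg _) (Finset.mem_univ j)
    linarith
  have h11 : 0 ≤ ∑ i, ∑ j, b i j p ^ 2 * (ν j ^ 2 + τ j ^ 2) :=
    Finset.sum_nonneg fun i _ => Finset.sum_nonneg fun j _ => by positivity
  have h12 : ∑ i, ∑ j, b i j p ^ 2 * (ν j ^ 2 + τ j ^ 2) ≤ 2 * ∑ i, ∑ j, b i j p ^ 2 := by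
    simp only [Finset.mul_sum]
    refine Finset.sum_le_sum fun i _ => Finset.sum_le_sum fun j _ => ?_
    have := mul_le_mul_of_nonneg_left (h10 j) (sq_nonneg (b i j p))
    linarith
  rw [abs_of_nonneg (mul_nonneg hρm h11)] at h7
  have h13 := mul_le_mul_of_nonneg_left (mul_le_mul_of_nonneg_left h12 hρm) hK
  linarith

lemma bdX_core (hρ : Dom ρ) {s t : MF n} {K : ℝ} (hK : 0 < K) (hn0 : 0 < (n : ℝ))
    (ha : ∀ x ∈ Om ρ, ∀ i j, |t x i j - s x i j| ≤ 1 / (4 * K * n ^ 2))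
    {m : ℕ} {b : Fin n → Fin n → V n → ℝ}
    (hkey : ∀ {p : V n}, ρ p = 0 → ∀ {ν τ : V n}, ∑ i, ν i ^ 2 = 1 → ∑ i, τ i ^ 2 = 1 →
      ∑ i, ν i * τ i = 0 → (∃ c > 0, ∀ i, pd i ρ p = c * ν i) → (∀ i, ∑ j, b i j p * ν j = 0) →
      |∑ i, ∑ j, b i j p * (τ i * τ j)| ≤ K * (ρ p ^ m * ∑ i, ∑ j, b i j p ^ 2))
    (hb : ∀ i j, ContDiff ℝ ∞ (b i j))
    (hs : ∀ i j x, b i j x = b j i x) (hh : ∀ x i j, t x i j - s x i j = ρ x ^ m * b i j x)
    (hbν : ∀ x, ρ x = 0 → ∀ i, ∑ j, b i j x * pd j ρ x = 0) :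
    ∀ x, ρ x = 0 → ∀ i j, b i j x = 0 := by
  intro p hp
  set g : V n := fun i => pd i ρ p with hg
  set S0 : ℝ := ∑ i, g i ^ 2 with hS0
  have hS0n : 0 ≤ S0 := Finset.sum_nonneg fun i _ => sq_nonneg _
  have hS0p : 0 < S0 := by
    refine lt_of_le_of_ne hS0n fun h0 => hρ.nz p hp ?_
    have hz : ∀ i, g i = 0 := fun i =>
      pow_eq_zero_iff two_ne_zero |>.1 ((Finset.sum_eq_zero_iff_of_nonneg fun i _ =>
        sq_nonneg (g i)).1 h0.symm i (Finset.mem_univ i))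
    refine ContinuousLinearMap.coe_injective (LinearMap.pi_ext' fun i => LinearMap.ext_ring ?_)
    have h1 : (fderiv ℝ ρ p) (Pi.single i 1) = 0 := hz i
    simpa using h1
  set c : ℝ := √S0 with hc'
  have hc0 : 0 < c := Real.sqrt_pos.2 hS0p
  have hcc : c ^ 2 = S0 := Real.sq_sqrt hS0n
  set ν : V n := fun i => g i / c with hνd
  have hν1 : ∑ i, ν i ^ 2 = 1 := by
    have h : ∑ i, ν i ^ 2 = S0 / c ^ 2 := by
      rw [hS0, Finset.sum_div]
      exact Finset.sum_congr rfl fun i _ => by simp only [hνd]; ring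
    rw [h, hcc, div_self hS0p.ne']
  have hνc : ∃ c > 0, ∀ i, pd i ρ p = c * ν i :=
    ⟨c, hc0, fun i => by simp only [hνd, hg]; field_simp⟩
  have hbν' : ∀ i, ∑ j, b i j p * ν j = 0 := fun i => by
    have h : ∑ j, b i j p * ν j = (∑ j, b i j p * pd j ρ p) / c := by
      rw [Finset.sum_div]
      exact Finset.sum_congr rfl fun j _ => by simp only [hνd, hg]; ring
    rw [h, hbν p hp i, zero_div]
  set S : ℝ := ∑ i, ∑ j, b i j p ^ 2 with hS
  have hS00 : 0 ≤ S := Finset.sum_nonneg fun i _ => Finset.sum_nonneg fun j _ => sq_nonneg _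
  have hρm : 0 ≤ ρ p ^ m := by rw [hp]; positivity
  have hκ : 0 ≤ K * (ρ p ^ m * S) := by positivity
  have hpol := polar (fun i j => hs i j p) hν1 hbν' hκ fun τ h2 h3 =>
    hkey hp hν1 h2 h3 hνc hbν'
  rcases Nat.eq_zero_or_pos m with hm | hm
  · subst hm
    have hcl : ∀ i j, |b i j p| ≤ 1 / (4 * K * n ^ 2) := by
      intro i j
      have h1 : IsClosed {x : V n | |b i j x| ≤ 1 / (4 * K * n ^ 2)} :=
        isClosed_le (hb i j).continuous.abs continuous_const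
      refine closure_minimal ?_ h1 (mem_closure hρ hp)
      intro x hx
      have h2 := ha x hx i j
      rwa [hh x i j, pow_zero, one_mul] at h2
    simp only [pow_zero, one_mul] at hpol
    have h1 : S ≤ ∑ i : Fin n, ∑ j : Fin n, K * S * (1 / (4 * K * n ^ 2)) := by
      rw [hS]
      refine Finset.sum_le_sum fun i _ => Finset.sum_le_sum fun j _ => ?_
      rw [← sq_abs, sq]
      exact mul_le_mul (hpol i j) (hcl i j) (abs_nonneg _) (by positivity)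
    rw [Finset.sum_const, Finset.sum_const, Finset.card_univ, Fintype.card_fin, nsmul_eq_mul,
      nsmul_eq_mul] at h1
    have h2 : (n : ℝ) * (n * (K * S * (1 / (4 * K * n ^ 2)))) = S / 4 := by
      field_simp
    rw [h2] at h1
    have h3 : S = 0 := by linarith
    intro i j
    have h4 := hpol i j
    rw [h3, mul_zero] at h4
    exact abs_nonpos_iff.1 h4
  · intro i j
    have h4 := hpol i j
    rw [hp, zero_pow hm.ne', zero_mul, mul_zero] at h4
    exact abs_nonpos_iff.1 h4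

/-- **(Y_BD)** the boundary step, base `σ ≥ μ > 0`. -/
theorem bdY (hcon : BX.RowCON) : BY.RowBD := by
  intro n hn μ hμ
  have hn0 : (0 : ℝ) < n := by
    have : 0 < n := by omega
    exact_mod_cast this
  have hK : 0 < 2 * (2 * (n : ℝ) / μ) := by positivity
  have ea : (1 : ℝ) / (4 * (2 * (2 * (n : ℝ) / μ)) * n ^ 2) = μ * (1 / (16 * n ^ 3)) := by
    field_simp
    ring
  refine ⟨μ * (1 / (16 * n ^ 3)), by positivity, ?_⟩
  intro ρ hρ σ hσ hσμ t ht hps hSE ha m b hb hs hh hbν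
  have hsym : ∀ x, (t x).IsSymm := fun x => by
    have h := (hps x).1
    rw [Matrix.IsHermitian, Matrix.conjTranspose_eq_transpose_of_trivial] at h
    exact h
  have h0 : ∀ x, 0 < σ x := fun x => lt_of_lt_of_le hμ (hσμ x)
  have hen : ∀ U : V n → ℂ, ContDiff ℝ ∞ U → (∀ x ∈ Om ρ, dv (sc σ) U x = 0) →
      ‖bl (Om ρ) (fun x => t x - sc σ x) U (fun x => (starRingEnd ℂ) (U x))‖ ≤
        2 * (n : ℝ) / μ * ∫ x in Om ρ, ∑ i, ∑ j, |t x i j - sc σ x i j| ^ 2 * ‖pd j U x‖ ^ 2 := by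
    intro U hU hU0
    have h := enex hρ hσ h0 hμ (fun x _ => hσμ x) ht hsym hSE (fun x hx i j => by
      rw [← sc_apply]
      refine (ha x hx i j).trans ?_
      rw [div_eq_mul_one_div μ]
      exact mul_le_mul_of_nonneg_left (small hn) hμ.le) hU hU0
    simpa only [sc_apply] using h
  exact bdX_core hρ hK hn0 (fun x hx i j => by rw [ea]; exact ha x hx i j)
    (keyX hcon hρ ⟨hσ, h0⟩ (by positivity) hen hb hs hh) hb hs hh hbν

/-- **(X_BD)** the boundary step, base `σ ≥ 1 / 2`. -/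
theorem bdX (hcon : BX.RowCON) : BX.RowBD := fun {_} hn => bdY hcon hn (1 / 2) (by norm_num)

end Vale.Agent.P088.H109
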