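import Vale.Agent.P088.H109.EnX
import Vale.Agent.P088.H72.X.Defs

/-!
# P088, conformally flat base: row X_EN
-/

open MeasureTheory Set
open scoped ContDiff Matrix

noncomputable section

namespace Vale.Agent.P088.H109

open Vale.Agent.P088.LR Vale.Agent.P088.LR.B Vale.Agent.P088.LR.BX Vale.Agent.P088.H639
open Vale.Agent.P088.LR.CF (sc)

/-- (X_EN) energy estimate, base `σ · 1`. -/
theorem xen : BX.RowEN := by
  intro n ρ hρ σ hσ hσ2 t ht hpos hSE hsm U hU hU0
  have hsym : ∀ x, (t x).IsSymm := fun x => by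
    have h := (hpos x).1
    rw [Matrix.IsHermitian, Matrix.conjTranspose_eq_transpose_of_trivial] at h
    exact h
  have h0 : ∀ x, 0 < σ x := fun x => lt_of_lt_of_le (by norm_num) (hσ2 x)
  have e1 : (1 / 2 : ℝ) / (2 * (n + 1)) = 1 / (4 * (n + 1)) := by
    field_simp
    norm_num
  have e2 : 2 * (n : ℝ) / (1 / 2) = 4 * n := by ring
  have h := enex hρ hσ h0 (m := 1 / 2) (by norm_num) (fun x _ => hσ2 x) ht hsym hSE
    (fun x hx i j => by rw [e1, ← sc_apply]; exact hsm x hx i j) hU hU0
  rw [e2] at h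
  simpa only [sc_apply] using h

end Vale.Agent.P088.H109
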